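import Mathlib

/-!
The finite-dimensional algebra `A` (generators and relations) used for statement S0268.
-/

set_option autoImplicit false

namespace Crest.Agent.R178

open Finset

/-- The defining relations, for a family of elements of a ring. -/
structure Rels {T : Type} [Ring T] (e : ℕ → T) (x : Fin 2 → Fin 2 → T) (d : T)
    (p r : Fin 2 → T) : Prop where
  e_big : ∀ i, 6 ≤ i → e i = 0
  e_sum : ∑ i ∈ range 6, e i = 1
  e_mul : ∀ i j, e i * e j = if i = j then e i else 0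
  x_e : ∀ a b i, x a b * e i = e (i + 1) * x a b
  d_e : ∀ i, d * e i = e (i + 1) * d
  e_p : ∀ k i, e i * p k = p k * e (i + 1)
  e_r : ∀ k i, e i * r k = r k * e i
  p_e0 : ∀ k, p k * e 0 = 0
  r_e0 : ∀ k, r k * e 0 = 0
  x_x : ∀ a b a' b', x a b * x a' b' + x a' b' * x a b = 0
  d_x : ∀ a b, d * x a b + x a b * d = x a 0 * x 0 b + x a 1 * x 1 b
  d_d : d * d = 0
  x_p : ∀ a b k, x a b * p k = p k * x a b + if b = k then r a else 0
  x_r : ∀ a b k, x a b * r k = -(r k * x a b)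
  d_p : ∀ k, d * p k = p k * d + (p 0 * x k 0 + p 1 * x k 1) - p k * (x 0 0 + x 1 1)
  d_r : ∀ k, d * r k = -(r k * d + (r 0 * x k 0 + r 1 * x k 1) - r k * (x 0 0 + x 1 1))
  p_p : ∀ k l, p k * p l = 0
  p_r : ∀ k l, p k * r l = 0
  r_p : ∀ k l, r k * p l = 0
  r_r : ∀ k l, r k * r l = 0

/-- Generators. -/
inductive Gen : Type
  | e : ℕ → Gen
  | x : Fin 2 → Fin 2 → Gen
  | d : Gen
  | p : Fin 2 → Gen
  | r : Fin 2 → Gen

abbrev Fr : Type := FreeAlgebra ℂ Gen

noncomputable def fe (i : ℕ) : Fr := FreeAlgebra.ι ℂ (Gen.e i)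
noncomputable def fx (a b : Fin 2) : Fr := FreeAlgebra.ι ℂ (Gen.x a b)
noncomputable def fd : Fr := FreeAlgebra.ι ℂ Gen.d
noncomputable def fp (k : Fin 2) : Fr := FreeAlgebra.ι ℂ (Gen.p k)
noncomputable def fr (k : Fin 2) : Fr := FreeAlgebra.ι ℂ (Gen.r k)

/-- The relations in the free algebra. -/
inductive Rel : Fr → Fr → Prop
  | e_big : ∀ i, 6 ≤ i → Rel (fe i) 0
  | e_sum : Rel (∑ i ∈ range 6, fe i) 1
  | e_mul : ∀ i j, Rel (fe i * fe j) (if i = j then fe i else 0)
  | x_e : ∀ a b i, Rel (fx a b * fe i) (fe (i + 1) * fx a b)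
  | d_e : ∀ i, Rel (fd * fe i) (fe (i + 1) * fd)
  | e_p : ∀ k i, Rel (fe i * fp k) (fp k * fe (i + 1))
  | e_r : ∀ k i, Rel (fe i * fr k) (fr k * fe i)
  | p_e0 : ∀ k, Rel (fp k * fe 0) 0
  | r_e0 : ∀ k, Rel (fr k * fe 0) 0
  | x_x : ∀ a b a' b', Rel (fx a b * fx a' b' + fx a' b' * fx a b) 0
  | d_x : ∀ a b, Rel (fd * fx a b + fx a b * fd) (fx a 0 * fx 0 b + fx a 1 * fx 1 b)
  | d_d : Rel (fd * fd) 0
  | x_p : ∀ a b k, Rel (fx a b * fp k) (fp k * fx a b + if b = k then fr a else 0)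
  | x_r : ∀ a b k, Rel (fx a b * fr k) (-(fr k * fx a b))
  | d_p : ∀ k, Rel (fd * fp k)
      (fp k * fd + (fp 0 * fx k 0 + fp 1 * fx k 1) - fp k * (fx 0 0 + fx 1 1))
  | d_r : ∀ k, Rel (fd * fr k)
      (-(fr k * fd + (fr 0 * fx k 0 + fr 1 * fx k 1) - fr k * (fx 0 0 + fx 1 1)))
  | p_p : ∀ k l, Rel (fp k * fp l) 0
  | p_r : ∀ k l, Rel (fp k * fr l) 0
  | r_p : ∀ k l, Rel (fr k * fp l) 0
  | r_r : ∀ k l, Rel (fr k * fr l) 0

/-- The algebra. -/
def A : Type := RingQuot Rel

noncomputable instance : Ring A := inferInstanceAs (Ring (RingQuot Rel))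
noncomputable instance : Algebra ℂ A := inferInstanceAs (Algebra ℂ (RingQuot Rel))

noncomputable def mkA : Fr →ₐ[ℂ] A := RingQuot.mkAlgHom ℂ Rel

lemma mkA_rel {a b : Fr} (h : Rel a b) : mkA a = mkA b := RingQuot.mkAlgHom_rel ℂ h

lemma mkA_surj : Function.Surjective mkA := RingQuot.mkAlgHom_surjective ℂ Rel

noncomputable def aE (i : ℕ) : A := mkA (fe i)
noncomputable def aX (a b : Fin 2) : A := mkA (fx a b)
noncomputable def aD : A := mkA fd
noncomputable def aP (k : Fin 2) : A := mkA (fp k)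
noncomputable def aR (k : Fin 2) : A := mkA (fr k)

lemma relsA : Rels aE aX aD aP aR where
  e_big i h := by simpa [aE] using mkA_rel (Rel.e_big i h)
  e_sum := by simpa [aE] using mkA_rel Rel.e_sum
  e_mul i j := by
    have := mkA_rel (Rel.e_mul i j)
    split_ifs at this ⊢ <;> simpa [aE] using this
  x_e a b i := by simpa [aE, aX] using mkA_rel (Rel.x_e a b i)
  d_e i := by simpa [aE, aD] using mkA_rel (Rel.d_e i)
  e_p k i := by simpa [aE, aP] using mkA_rel (Rel.e_p k i)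
  e_r k i := by simpa [aE, aR] using mkA_rel (Rel.e_r k i)
  p_e0 k := by simpa [aE, aP] using mkA_rel (Rel.p_e0 k)
  r_e0 k := by simpa [aE, aR] using mkA_rel (Rel.r_e0 k)
  x_x a b a' b' := by simpa [aX] using mkA_rel (Rel.x_x a b a' b')
  d_x a b := by simpa [aX, aD] using mkA_rel (Rel.d_x a b)
  d_d := by simpa [aD] using mkA_rel Rel.d_d
  x_p a b k := by
    have := mkA_rel (Rel.x_p a b k)
    split_ifs at this ⊢ <;> simpa [aX, aP, aR] using this
  x_r a b k := by simpa [aX, aR] using mkA_rel (Rel.x_r a b k)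
  d_p k := by simpa [aX, aP, aD] using mkA_rel (Rel.d_p k)
  d_r k := by simpa [aX, aR, aD] using mkA_rel (Rel.d_r k)
  p_p k l := by simpa [aP] using mkA_rel (Rel.p_p k l)
  p_r k l := by simpa [aP, aR] using mkA_rel (Rel.p_r k l)
  r_p k l := by simpa [aP, aR] using mkA_rel (Rel.r_p k l)
  r_r k l := by simpa [aR] using mkA_rel (Rel.r_r k l)

lemma Rels.map {T S : Type} [Ring T] [Ring S] {e : ℕ → T} {x : Fin 2 → Fin 2 → T} {d : T}
    {p r : Fin 2 → T} (h : Rels e x d p r) (f : T →+* S) :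
    Rels (fun i => f (e i)) (fun a b => f (x a b)) (f d) (fun k => f (p k)) (fun k => f (r k)) where
  e_big i hi := by simp [h.e_big i hi]
  e_sum := by simpa using congrArg f h.e_sum
  e_mul i j := by
    have := congrArg f (h.e_mul i j)
    split_ifs at this ⊢ <;> simpa using this
  x_e a b i := by simpa using congrArg f (h.x_e a b i)
  d_e i := by simpa using congrArg f (h.d_e i)
  e_p k i := by simpa using congrArg f (h.e_p k i)
  e_r k i := by simpa using congrArg f (h.e_r k i)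
  p_e0 k := by simpa using congrArg f (h.p_e0 k)
  r_e0 k := by simpa using congrArg f (h.r_e0 k)
  x_x a b a' b' := by simpa using congrArg f (h.x_x a b a' b')
  d_x a b := by simpa using congrArg f (h.d_x a b)
  d_d := by simpa using congrArg f h.d_d
  x_p a b k := by
    have := congrArg f (h.x_p a b k)
    split_ifs at this ⊢ <;> simpa using this
  x_r a b k := by simpa using congrArg f (h.x_r a b k)
  d_p k := by simpa using congrArg f (h.d_p k)
  d_r k := by simpa using congrArg f (h.d_r k)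
  p_p k l := by simpa using congrArg f (h.p_p k l)
  p_r k l := by simpa using congrArg f (h.p_r k l)
  r_p k l := by simpa using congrArg f (h.r_p k l)
  r_r k l := by simpa using congrArg f (h.r_r k l)

section lift

variable {T : Type} [Ring T] [Algebra ℂ T] {e : ℕ → T} {x : Fin 2 → Fin 2 → T} {d : T}
    {p r : Fin 2 → T}

def genMap (e : ℕ → T) (x : Fin 2 → Fin 2 → T) (d : T) (p r : Fin 2 → T) : Gen → T
  | Gen.e i => e i
  | Gen.x a b => x a b
  | Gen.d => d
  | Gen.p k => p k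
  | Gen.r k => r k

lemma lift_rel (h : Rels e x d p r) ⦃a b : Fr⦄ (hab : Rel a b) :
    FreeAlgebra.lift ℂ (genMap e x d p r) a = FreeAlgebra.lift ℂ (genMap e x d p r) b := by
  induction hab with
  | e_big i hi => simpa [fe, genMap] using h.e_big i hi
  | e_sum => simpa [fe, genMap] using h.e_sum
  | e_mul i j =>
    have := h.e_mul i j
    split_ifs at this ⊢ <;> simpa [fe, genMap] using this
  | x_e a b i => simpa [fe, fx, genMap] using h.x_e a b i
  | d_e i => simpa [fe, fd, genMap] using h.d_e i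
  | e_p k i => simpa [fe, fp, genMap] using h.e_p k i
  | e_r k i => simpa [fe, fr, genMap] using h.e_r k i
  | p_e0 k => simpa [fe, fp, genMap] using h.p_e0 k
  | r_e0 k => simpa [fe, fr, genMap] using h.r_e0 k
  | x_x a b a' b' => simpa [fx, genMap] using h.x_x a b a' b'
  | d_x a b => simpa [fx, fd, genMap] using h.d_x a b
  | d_d => simpa [fd, genMap] using h.d_d
  | x_p a b k =>
    have := h.x_p a b k
    split_ifs at this ⊢ <;> simpa [fx, fp, fr, genMap] using this
  | x_r a b k => simpa [fx, fr, genMap] using h.x_r a b k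
  | d_p k => simpa [fx, fp, fd, genMap] using h.d_p k
  | d_r k => simpa [fx, fr, fd, genMap] using h.d_r k
  | p_p k l => simpa [fp, genMap] using h.p_p k l
  | p_r k l => simpa [fp, fr, genMap] using h.p_r k l
  | r_p k l => simpa [fp, fr, genMap] using h.r_p k l
  | r_r k l => simpa [fr, genMap] using h.r_r k l

noncomputable def liftA (h : Rels e x d p r) : A →ₐ[ℂ] T :=
  RingQuot.liftAlgHom ℂ ⟨FreeAlgebra.lift ℂ (genMap e x d p r), lift_rel h⟩

lemma liftA_mk (h : Rels e x d p r) (a : Fr) :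
    liftA h (mkA a) = FreeAlgebra.lift ℂ (genMap e x d p r) a :=
  RingQuot.liftAlgHom_mkAlgHom_apply ℂ _ (lift_rel h) a

@[simp] lemma liftA_E (h : Rels e x d p r) (i : ℕ) : liftA h (aE i) = e i := by
  simp [aE, liftA_mk, fe, genMap]
@[simp] lemma liftA_X (h : Rels e x d p r) (a b : Fin 2) : liftA h (aX a b) = x a b := by
  simp [aX, liftA_mk, fx, genMap]
@[simp] lemma liftA_D (h : Rels e x d p r) : liftA h aD = d := by
  simp [aD, liftA_mk, fd, genMap]
@[simp] lemma liftA_P (h : Rels e x d p r) (k : Fin 2) : liftA h (aP k) = p k := by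
  simp [aP, liftA_mk, fp, genMap]
@[simp] lemma liftA_R (h : Rels e x d p r) (k : Fin 2) : liftA h (aR k) = r k := by
  simp [aR, liftA_mk, fr, genMap]

end lift

lemma A_induction {Q : A → Prop} (halg : ∀ c : ℂ, Q (algebraMap ℂ A c))
    (hE : ∀ i, Q (aE i)) (hX : ∀ a b, Q (aX a b)) (hD : Q aD) (hP : ∀ k, Q (aP k))
    (hR : ∀ k, Q (aR k)) (hmul : ∀ a b, Q a → Q b → Q (a * b))
    (hadd : ∀ a b, Q a → Q b → Q (a + b)) (a : A) : Q a := by
  obtain ⟨a, rfl⟩ := mkA_surj a
  induction a using FreeAlgebra.induction with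
  | grade0 c => simpa using halg c
  | grade1 g =>
    cases g with
    | e i => exact hE i
    | x a b => exact hX a b
    | d => exact hD
    | p k => exact hP k
    | r k => exact hR k
  | mul a b ha hb => simpa using hmul _ _ ha hb
  | add a b ha hb => simpa using hadd _ _ ha hb

/-! ### Finite-dimensionality -/

/-- span of the raising generators -/
noncomputable def Rsp : Submodule ℂ A := Submodule.span ℂ
  (insert aD (Set.range fun q : Fin 2 × Fin 2 => aX q.1 q.2))

noncomputable def Nsp : Submodule ℂ A := Submodule.span ℂ (Set.range aP ∪ Set.range aR)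

noncomputable def U : ℕ → Submodule ℂ A
  | 0 => Submodule.span ℂ (Set.range fun i : Fin 6 => aE i)
  | k + 1 => Rsp * U k

lemma Rsp_fg : Rsp.FG := Submodule.fg_span ((Set.finite_range _).insert _)
lemma Nsp_fg : Nsp.FG := Submodule.fg_span ((Set.finite_range _).union (Set.finite_range _))

lemma U_fg : ∀ k, (U k).FG
  | 0 => Submodule.fg_span (Set.finite_range _)
  | k + 1 => Rsp_fg.mul (U_fg k)

lemma aE_mem (i : ℕ) : aE i ∈ U 0 := by
  by_cases h : i < 6
  · exact Submodule.subset_span ⟨⟨i, h⟩, rfl⟩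
  · rw [relsA.e_big i (by omega)]; exact Submodule.zero_mem _

lemma aX_mem (a b : Fin 2) : aX a b ∈ Rsp := Submodule.subset_span (Or.inr ⟨(a, b), rfl⟩)
lemma aD_mem : aD ∈ Rsp := Submodule.subset_span (Or.inl rfl)
lemma aP_mem (k : Fin 2) : aP k ∈ Nsp := Submodule.subset_span (Or.inl ⟨k, rfl⟩)
lemma aR_mem (k : Fin 2) : aR k ∈ Nsp := Submodule.subset_span (Or.inr ⟨k, rfl⟩)

lemma Rsp_e {y : A} (hy : y ∈ Rsp) (i : ℕ) : y * aE i = aE (i + 1) * y := by
  induction hy using Submodule.span_induction with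
  | mem y hy =>
    rcases hy with rfl | ⟨q, rfl⟩
    · exact relsA.d_e i
    · exact relsA.x_e _ _ i
  | zero => simp
  | add a b _ _ ha hb => rw [add_mul, mul_add, ha, hb]
  | smul c a _ ha => rw [smul_mul_assoc, mul_smul_comm, ha]

lemma e0_Rsp {y : A} (hy : y ∈ Rsp) : aE 0 * y = 0 := by
  have h1 : y = ∑ i ∈ range 6, aE (i + 1) * y := by
    conv_lhs => rw [← mul_one y, ← relsA.e_sum, mul_sum]
    exact sum_congr rfl fun i _ => Rsp_e hy i
  have h2 : y = ∑ i ∈ range 6, aE i * y := by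
    rw [← sum_mul, relsA.e_sum, one_mul]
  simp only [sum_range_succ, range_zero, sum_empty, zero_add, Nat.reduceAdd,
    relsA.e_big 6 le_rfl, zero_mul, add_zero] at h1 h2
  have h3 := h1.symm.trans h2
  have h4 : aE 0 * y = (aE 0 * y + aE 1 * y + aE 2 * y + aE 3 * y + aE 4 * y + aE 5 * y) -
      (aE 1 * y + aE 2 * y + aE 3 * y + aE 4 * y + aE 5 * y) := by abel
  rw [h4, ← h3, sub_self]

lemma e_mul_U : ∀ k i, ∀ u ∈ U k, aE i * u ∈ U k
  | 0, i, u, hu => by
    induction hu using Submodule.span_induction with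
    | mem y hy =>
      obtain ⟨j, rfl⟩ := hy
      rw [relsA.e_mul]
      split_ifs
      · exact aE_mem _
      · exact Submodule.zero_mem _
    | zero => simp
    | add a b _ _ ha hb => rw [mul_add]; exact Submodule.add_mem _ ha hb
    | smul c a _ ha => rw [mul_smul_comm]; exact Submodule.smul_mem _ _ ha
  | k + 1, i, u, hu => by
    refine Submodule.mul_induction_on hu (fun y hy v hv => ?_) (fun a b ha hb => ?_)
    · rcases i with _ | i
      · rw [← mul_assoc, e0_Rsp hy, zero_mul]; exact Submodule.zero_mem _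
      · rw [← mul_assoc, ← Rsp_e hy, mul_assoc]
        exact Submodule.mul_mem_mul hy (e_mul_U k i v hv)
    · rw [mul_add]; exact Submodule.add_mem _ ha hb

lemma e_mul_U_zero : ∀ k i, i < k → ∀ u ∈ U k, aE i * u = 0
  | 0, i, hi, _, _ => by omega
  | k + 1, i, hi, u, hu => by
    refine Submodule.mul_induction_on hu (fun y hy v hv => ?_) (fun a b ha hb => ?_)
    · rcases i with _ | i
      · rw [← mul_assoc, e0_Rsp hy, zero_mul]
      · rw [← mul_assoc, ← Rsp_e hy, mul_assoc, e_mul_U_zero k i (by omega) v hv, mul_zero]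
    · rw [mul_add, ha, hb, add_zero]

lemma U_six (u : A) (hu : u ∈ U 6) : u = 0 := by
  rw [← one_mul u, ← relsA.e_sum, sum_mul]
  exact sum_eq_zero fun i hi => e_mul_U_zero 6 i (by simpa using hi) u hu

noncomputable def Bsp : Submodule ℂ A := ⨆ k : Fin 6, U k

lemma Bsp_fg : Bsp.FG := Submodule.fg_iSup _ fun k => U_fg k

lemma U_le (k : ℕ) (hk : k ≤ 6) : U k ≤ Bsp := by
  by_cases h : k < 6
  · exact le_iSup (fun k : Fin 6 => U k) ⟨k, h⟩
  · obtain rfl : k = 6 := by omega
    intro u hu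
    rw [U_six u hu]; exact Submodule.zero_mem _

lemma e_mul_B (i : ℕ) (u : A) (hu : u ∈ Bsp) : aE i * u ∈ Bsp := by
  refine Submodule.iSup_induction (fun k : Fin 6 => U k) (motive := fun u => aE i * u ∈ Bsp) hu
    (fun k v hv => ?_) (by simp) (fun a b ha hb => ?_)
  · exact U_le k (by omega) (e_mul_U k i v hv)
  · rw [mul_add]; exact Submodule.add_mem _ ha hb

lemma R_mul_B {y : A} (hy : y ∈ Rsp) (u : A) (hu : u ∈ Bsp) : y * u ∈ Bsp := by
  refine Submodule.iSup_induction (fun k : Fin 6 => U k) (motive := fun u => y * u ∈ Bsp) hu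
    (fun k v hv => ?_) (by simp) (fun a b ha hb => ?_)
  · exact U_le (k + 1) (by omega) (Submodule.mul_mem_mul hy hv)
  · rw [mul_add]; exact Submodule.add_mem _ ha hb

lemma one_mem_B : (1 : A) ∈ Bsp := by
  rw [← relsA.e_sum]
  exact Submodule.sum_mem _ fun i _ => U_le 0 (by omega) (aE_mem i)

lemma NB_induction {Q : A → Prop} (h0 : Q 0) (hadd : ∀ a b, Q a → Q b → Q (a + b))
    (hsm : ∀ (c : ℂ) a, Q a → Q (c • a))
    (hp : ∀ k, ∀ b ∈ Bsp, Q (aP k * b)) (hr : ∀ k, ∀ b ∈ Bsp, Q (aR k * b))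
    (u : A) (hu : u ∈ Nsp * Bsp) : Q u := by
  refine Submodule.mul_induction_on hu (fun y hy v hv => ?_) hadd
  induction hy using Submodule.span_induction with
  | mem y hy =>
    rcases hy with ⟨k, rfl⟩ | ⟨k, rfl⟩
    · exact hp k v hv
    · exact hr k v hv
  | zero => simpa using h0
  | add a b _ _ ha hb => rw [add_mul]; exact hadd _ _ ha hb
  | smul c a _ ha => rw [smul_mul_assoc]; exact hsm _ _ ha

lemma gen_mul_NB (g : A) (hp : ∀ k, ∀ b ∈ Bsp, g * (aP k * b) ∈ Nsp * Bsp)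
    (hr : ∀ k, ∀ b ∈ Bsp, g * (aR k * b) ∈ Nsp * Bsp) (u : A) (hu : u ∈ Nsp * Bsp) :
    g * u ∈ Nsp * Bsp := by
  refine NB_induction (Q := fun u => g * u ∈ Nsp * Bsp) (by simp) (fun a b ha hb => ?_)
    (fun c a ha => ?_) hp hr u hu
  · rw [mul_add]; exact Submodule.add_mem _ ha hb
  · rw [mul_smul_comm]; exact Submodule.smul_mem _ _ ha

lemma mul_mem_S (a : A) : ∀ u ∈ Bsp ⊔ Nsp * Bsp, a * u ∈ Bsp ⊔ Nsp * Bsp := by
  have key : ∀ g : A, (∀ u ∈ Bsp, g * u ∈ Bsp ⊔ Nsp * Bsp) →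
      (∀ u ∈ Nsp * Bsp, g * u ∈ Nsp * Bsp) → ∀ u ∈ Bsp ⊔ Nsp * Bsp, g * u ∈ Bsp ⊔ Nsp * Bsp := by
    intro g h1 h2 u hu
    obtain ⟨v, hv, w, hw, rfl⟩ := Submodule.mem_sup.mp hu
    rw [mul_add]
    exact Submodule.add_mem _ (h1 v hv) (Submodule.mem_sup_right (h2 w hw))
  have mp : ∀ k, ∀ b ∈ Bsp, aP k * b ∈ Nsp * Bsp := fun k b hb =>
    Submodule.mul_mem_mul (aP_mem k) hb
  have mr : ∀ k, ∀ b ∈ Bsp, aR k * b ∈ Nsp * Bsp := fun k b hb =>
    Submodule.mul_mem_mul (aR_mem k) hb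
  have mx : ∀ i j, ∀ b ∈ Bsp, aX i j * b ∈ Bsp := fun i j b hb => R_mul_B (aX_mem i j) b hb
  have md : ∀ b ∈ Bsp, aD * b ∈ Bsp := fun b hb => R_mul_B aD_mem b hb
  induction a using A_induction with
  | halg c =>
    intro u hu
    rw [← Algebra.smul_def]; exact Submodule.smul_mem _ _ hu
  | hE i =>
    refine key _ (fun u hu => Submodule.mem_sup_left (e_mul_B i u hu))
      (gen_mul_NB _ (fun k b hb => ?_) (fun k b hb => ?_))
    · rw [← mul_assoc, relsA.e_p, mul_assoc]; exact mp _ _ (e_mul_B _ _ hb)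
    · rw [← mul_assoc, relsA.e_r, mul_assoc]; exact mr _ _ (e_mul_B _ _ hb)
  | hX i j =>
    refine key _ (fun u hu => Submodule.mem_sup_left (mx i j u hu))
      (gen_mul_NB _ (fun k b hb => ?_) (fun k b hb => ?_))
    · rw [← mul_assoc, relsA.x_p, add_mul, mul_assoc]
      refine Submodule.add_mem _ (mp _ _ (mx _ _ _ hb)) ?_
      split_ifs
      · exact mr _ _ hb
      · simp
    · rw [← mul_assoc, relsA.x_r, neg_mul, mul_assoc]
      exact Submodule.neg_mem _ (mr _ _ (mx _ _ _ hb))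
  | hD =>
    refine key _ (fun u hu => Submodule.mem_sup_left (md u hu))
      (gen_mul_NB _ (fun k b hb => ?_) (fun k b hb => ?_))
    · rw [← mul_assoc, relsA.d_p]
      simp only [add_mul, sub_mul, mul_add, mul_assoc]
      exact Submodule.sub_mem _ (Submodule.add_mem _ (mp _ _ (md _ hb))
        (Submodule.add_mem _ (mp _ _ (mx _ _ _ hb)) (mp _ _ (mx _ _ _ hb))))
        (Submodule.add_mem _ (mp _ _ (mx _ _ _ hb)) (mp _ _ (mx _ _ _ hb)))
    · rw [← mul_assoc, relsA.d_r]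
      simp only [neg_mul, add_mul, sub_mul, mul_add, mul_assoc]
      exact Submodule.neg_mem _ <| Submodule.sub_mem _ (Submodule.add_mem _ (mr _ _ (md _ hb))
        (Submodule.add_mem _ (mr _ _ (mx _ _ _ hb)) (mr _ _ (mx _ _ _ hb))))
        (Submodule.add_mem _ (mr _ _ (mx _ _ _ hb)) (mr _ _ (mx _ _ _ hb)))
  | hP k =>
    refine key _ (fun u hu => Submodule.mem_sup_right (mp k u hu))
      (gen_mul_NB _ (fun l b _ => ?_) (fun l b _ => ?_))
    · rw [← mul_assoc, relsA.p_p]; simp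
    · rw [← mul_assoc, relsA.p_r]; simp
  | hR k =>
    refine key _ (fun u hu => Submodule.mem_sup_right (mr k u hu))
      (gen_mul_NB _ (fun l b _ => ?_) (fun l b _ => ?_))
    · rw [← mul_assoc, relsA.r_p]; simp
    · rw [← mul_assoc, relsA.r_r]; simp
  | hmul a b ha hb => intro u hu; rw [mul_assoc]; exact ha _ (hb u hu)
  | hadd a b ha hb => intro u hu; rw [add_mul]; exact Submodule.add_mem _ (ha u hu) (hb u hu)

instance A_finite : FiniteDimensional ℂ A := by
  have h : (Bsp ⊔ Nsp * Bsp : Submodule ℂ A) = ⊤ := by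
    rw [eq_top_iff]
    intro a _
    simpa using mul_mem_S a 1 (Submodule.mem_sup_left one_mem_B)
  refine ⟨?_⟩
  rw [← h]
  exact Bsp_fg.sup (Nsp_fg.mul Bsp_fg)

end Crest.Agent.R178
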