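import Crest.Agent.R178.Proj

/-!
The projective dimension of the induced modules.
-/

set_option autoImplicit false

namespace Crest.Agent.R178

lemma ind_upper : ∀ (k : ℕ) (z : ℤ), z + k = 6 → 1 ≤ z →
    ∀ (G : GM) (N : TRep) (ι : N.M →ₗ[ℂ] G.W), IsCE G N ι →
      ∀ h0 : ∀ v, (G.Inf z).E 0 v = 0, ((G.Inf z).Ind h0).PD k
  | 0, z, hz, _, G, N, ι, h, h0 => by
    have hv : ∀ v : (G.Inf z).V, v = 0 := fun v => GM.Inf_ext fun l => by
      by_cases hl : l < 6
      · simpa using h.neg_bot (by omega) _ (GM.val_mem v l)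
      · simpa using GM.val_big v l (by omega)
    rw [Rep.pd_zero_iff]
    intro u
    refine (Rep.indVal _ h0).injective ?_
    rw [map_zero]
    exact Prod.ext (hv _) (Prod.ext (funext fun k => hv _) (funext fun k => hv _))
  | k + 1, z, hz, hz1, G, N, ι, h, h0 => by
    obtain ⟨j, rfl⟩ : ∃ j : ℕ, z = j := ⟨z.toNat, by omega⟩
    have h1 := h.neg.pos.E0 (j := (j : ℤ) + 1) (by omega)
    have h2 := (h.pos.cone 1).E0 hz1
    exact ((G.cone_ses 1 j).ind h1 h2 h0).pd₃
      (ind_upper k (j + 1) (by push_cast at hz; omega) (by omega) G.neg N ι h.neg h1)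
      ((h.pd_ind_cone one_ne_zero j (by push_cast at hz; omega) h2).mono (by omega))

lemma ind_four {G : GM} {N : TRep} {ι : N.M →ₗ[ℂ] G.W} (h : IsCE G N ι)
    (h0 : ∀ v, (G.Inf 4).E 0 v = 0) (hpd : ((G.Inf 4).Ind h0).PD 1) (m : N.M) : m = 0 := by
  have h1 := h.neg.pos.E0 (j := (4 : ℤ) + 1) (by omega)
  have h2 := (h.pos.cone 1).E0 (j := 4) (by omega)
  have ses := (G.cone_ses 1 4).ind h1 h2 h0
  obtain ⟨s, hs, hs'⟩ := Rep.split_of_pd_one hpd ses.hg ses.surj
  let t : (G.Inf 4).V →ₗ[ℂ] ((G.cone 1).Inf 4).V := Rep.indProj _ h2 ∘ₗ s ∘ₗ Rep.indIncl _ h0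
  have ht : IsBHom _ _ t :=
    (Rep.indProj_hom _ h2 (GM.Inf_P _ _) (GM.Inf_Q _ _)).toIsBHom.comp
      (hs.toIsBHom.comp (Rep.indIncl_bhom _ h0))
  have ht' : ∀ v, (G.fst_hom 1 4).map (t v) = v := fun v => by
    have := congrArg (fun u => (Rep.indVal _ h0 u).1) (hs' (Rep.indIncl _ h0 v))
    simpa [t] using this
  let x : N.M → (G.Inf 4).V := fun m => G.single 4 4 (by norm_num) (ι m)
    (G.mem_congr (by simp) (h.ι_mem m))
  have hx : ∀ m i, G.val 4 (x m) i = if i = 4 then ι m else 0 := fun m i => rfl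
  have htx : ∀ m, (G.cone 1).val 4 (t (x m)) 4 = (ι m, 0) := fun m => by
    refine Prod.ext ?_ ?_
    · have := congrArg (fun u => G.val 4 u 4) (ht' (x m))
      simpa [hx] using this
    · exact h.neg_bot (by norm_num) _ (GM.val_mem (t (x m)) 4).2
  have hD : (G.Inf 4).D (x m) = (G.Inf 4).X 0 0 (x (N.T 0 0 m)) + (G.Inf 4).X 0 1 (x (N.T 0 1 m)) +
      (G.Inf 4).X 1 0 (x (N.T 1 0 m)) + (G.Inf 4).X 1 1 (x (N.T 1 1 m)) := by
    refine GM.Inf_ext fun l => ?_
    rcases l with _ | l
    · simp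
    · simp only [map_add, Pi.add_apply, GM.Inf_D_succ, GM.Inf_X_succ, hx]
      split_ifs <;> simp [h.D_ι]
  have := congrArg (fun u => ((G.cone 1).val 4 (t u) (4 + 1)).2) hD
  simp only [map_add, ht.D, ht.X, Pi.add_apply, GM.Inf_D_succ, GM.Inf_X_succ, htx] at this
  exact h.ι_inj m (by simpa using this)

lemma ind_lower : ∀ (k : ℕ) (z : ℤ), z + k = 4 → 1 ≤ z →
    ∀ (G : GM) (N : TRep) (ι : N.M →ₗ[ℂ] G.W), IsCE G N ι →
      ∀ h0 : ∀ v, (G.Inf z).E 0 v = 0, ((G.Inf z).Ind h0).PD (k + 1) → ∀ m : N.M, m = 0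
  | 0, z, hz, _, G, N, ι, h, h0 => by
    obtain rfl : z = 4 := by omega
    exact ind_four h h0
  | k + 1, z, hz, hz1, G, N, ι, h, h0 => by
    intro hpd
    obtain ⟨j, rfl⟩ : ∃ j : ℕ, z = j := ⟨z.toNat, by omega⟩
    have h1 := h.neg.pos.E0 (j := (j : ℤ) + 1) (by omega)
    have h2 := (h.pos.cone 1).E0 hz1
    exact ind_lower k (j + 1) (by push_cast at hz; omega) (by omega) G.neg N ι h.neg h1
      (((G.cone_ses 1 j).ind h1 h2 h0).pd₁
        ((h.pd_ind_cone one_ne_zero j (by push_cast at hz; omega) h2).mono (by omega)) hpd)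

/-! ### Identification of the kernel part -/

section beta

variable {G : GM} {N : TRep} {ι : N.M →ₗ[ℂ] G.W} (h : IsCE G N ι)

/-- shift of the first component -/
noncomputable def betaFst (G : GM) (k : Fin 2) : (G.F.Inf 0).V →ₗ[ℂ] (G.Inf 1).V where
  toFun f := G.mk' 1 (upF LinearMap.id fun l => (G.F.val 0 f l).1 k)
    (fun l => by
      rcases l with _ | l
      · simp
      · rw [upF_succ]
        split_ifs
        · exact G.mem_congr (by simp) (GM.mem_pfam.mp (GM.val_mem f l).1 k)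
        · simp)
    (fun l hl => by
      rcases l with _ | l
      · simp
      · rw [upF_succ, if_neg (by omega)])
  map_add' f g := GM.Inf_ext fun l => by
    rcases l with _ | l
    · simp
    · by_cases hl : l < 5 <;> simp [upF_succ, hl]
  map_smul' c f := GM.Inf_ext fun l => by
    rcases l with _ | l
    · simp
    · by_cases hl : l < 5 <;> simp [upF_succ, hl]

@[simp] lemma betaFst_zero (G : GM) (k : Fin 2) (f : (G.F.Inf 0).V) :
    G.val 1 (betaFst G k f) 0 = 0 := rfl
lemma betaFst_succ (G : GM) (k : Fin 2) (f : (G.F.Inf 0).V) (l : ℕ) :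
    G.val 1 (betaFst G k f) (l + 1) = if l < 5 then (G.F.val 0 f l).1 k else 0 := rfl

noncomputable def betaSnd (G : GM) (k : Fin 2) : (G.F.Inf 0).V →ₗ[ℂ] (G.Inf 1).V where
  toFun f := G.mk' 1 (fun l => (G.F.val 0 f l).2 k)
    (fun l => G.mem_congr (by simp) (GM.mem_pfam.mp (GM.val_mem f l).2 k))
    (fun l hl => by simp [GM.val_big f l hl])
  map_add' f g := GM.Inf_ext fun l => by simp
  map_smul' c f := GM.Inf_ext fun l => by simp

@[simp] lemma betaSnd_val (G : GM) (k : Fin 2) (f : (G.F.Inf 0).V) (l : ℕ) :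
    G.val 1 (betaSnd G k f) l = (G.F.val 0 f l).2 k := rfl

noncomputable def beta (G : GM) (h0 : ∀ v, (G.Inf 1).E 0 v = 0) :
    (G.F.Inf 0).V →ₗ[ℂ] ((G.Inf 1).Gr h0).V :=
  (Rep.grVal _ h0).symm.toLinearMap ∘ₗ (LinearMap.pi (betaFst G)).prod (LinearMap.pi (betaSnd G))

@[simp] lemma grVal_beta (G : GM) (h0 : ∀ v, (G.Inf 1).E 0 v = 0) (f : (G.F.Inf 0).V) :
    Rep.grVal _ h0 (beta G h0 f) = (fun k => betaFst G k f, fun k => betaSnd G k f) := rfl

lemma beta_hom (G : GM) (h0 : ∀ v, (G.Inf 1).E 0 v = 0) :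
    IsHom (G.F.Inf 0) ((G.Inf 1).Gr h0) (beta G h0) where
  E i f := (Rep.grVal _ h0).injective (by
    ext k
    · refine GM.Inf_ext fun l => ?_
      rcases l with _ | l
      · simp [GM.Inf_E]
      · simp only [grVal_beta, Rep.grVal_E, Rep.grE_fst, betaFst_succ, GM.Inf_E,
          Nat.add_right_cancel_iff]
        split_ifs <;> simp
    · refine GM.Inf_ext fun l => ?_
      simp only [grVal_beta, Rep.grVal_E, Rep.grE_snd, betaSnd_val, GM.Inf_E]
      split_ifs <;> simp)
  X a b f := (Rep.grVal _ h0).injective (by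
    ext k
    · refine GM.Inf_ext fun l => ?_
      rcases l with _ | _ | l
      · simp
      · simp [betaFst_succ, GM.Inf_X_succ]
      · by_cases hl : l + 1 < 5
        · have hl' : l < 5 := by omega
          simp [betaFst_succ, GM.Inf_X_succ, hl, hl']
        · simp [betaFst_succ, GM.Inf_X_succ, hl]
    · refine GM.Inf_ext fun l => ?_
      rcases l with _ | l
      · by_cases hk : k = a <;> simp [sOp_apply, hk]
      · by_cases hl : l < 5 <;> by_cases hk : k = a <;>
          simp [betaFst_succ, GM.Inf_X_succ, hl, sOp_apply, hk])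
  D f := (Rep.grVal _ h0).injective (by
    ext k
    · refine GM.Inf_ext fun l => ?_
      rcases l with _ | _ | l
      · simp [DV_apply]
      · simp [betaFst_succ, GM.Inf_X_succ, GM.Inf_D_succ, DV_apply]
      · by_cases hl : l + 1 < 5
        · have hl' : l < 5 := by omega
          simp [betaFst_succ, GM.Inf_X_succ, GM.Inf_D_succ, DV_apply, hl, hl']
        · simp [betaFst_succ, GM.Inf_X_succ, GM.Inf_D_succ, DV_apply, hl]
    · refine GM.Inf_ext fun l => ?_
      rcases l with _ | l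
      · simp [DV_apply]
      · by_cases hl : l < 5 <;> simp [GM.Inf_X_succ, GM.Inf_D_succ, DV_apply, hl])
  P k f := by simp
  Q k f := by simp

include h in
lemma beta_bij (h0 : ∀ v, (G.Inf 1).E 0 v = 0) : Function.Bijective (beta G h0) := by
  constructor
  · rw [injective_iff_map_eq_zero]
    intro f hf
    have := congrArg (Rep.grVal _ h0) hf
    rw [grVal_beta, map_zero, Prod.mk_eq_zero] at this
    obtain ⟨h1, h2⟩ := this
    refine GM.Inf_ext fun l => ?_
    ext k
    · by_cases hl : l < 5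
      · have := congrArg (fun u => G.val 1 u (l + 1)) (congrFun h1 k)
        simpa [betaFst_succ, hl] using this
      · by_cases hl' : l = 5
        · subst hl'
          simpa using h.five _ (G.mem_congr (by simp) (GM.mem_pfam.mp (GM.val_mem f 5).1 k))
        · simp [GM.val_big f l (by omega)]
    · have := congrArg (fun u => G.val 1 u l) (congrFun h2 k)
      simpa using this
  · intro u
    refine ⟨G.F.mk' 0 (fun l => (fun k => G.val 1 ((Rep.grVal _ h0 u).1 k) (l + 1),
      fun k => G.val 1 ((Rep.grVal _ h0 u).2 k) l)) (fun l => ⟨GM.mem_pfam.mpr fun k => ?_,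
        GM.mem_pfam.mpr fun k => ?_⟩) (fun l hl => ?_), (Rep.grVal _ h0).injective ?_⟩
    · exact G.mem_congr (by simp) (GM.val_mem _ (l + 1))
    · exact G.mem_congr (by simp) (GM.val_mem _ l)
    · ext k
      · simp [GM.val_big _ (l + 1) (by omega)]
      · simp [GM.val_big _ l hl]
    · ext k
      · refine GM.Inf_ext fun l => ?_
        rcases l with _ | l
        · simpa using (h.neg_bot (by simp) _ (GM.val_mem ((Rep.grVal _ h0 u).1 k) 0)).symm
        · by_cases hl : l < 5
          · simp [betaFst_succ, hl]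
          · simp [GM.val_big _ (l + 1) (by omega)]
      · refine GM.Inf_ext fun l => ?_
        simp

end beta

end Crest.Agent.R178
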