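import Crest.Agent.R178.Ops

/-!
Modules over the Chevalley-Eilenberg relations with a family of subspaces, and
Chevalley-Eilenberg complexes of representations of gl(2).
-/

set_option autoImplicit false

namespace Crest.Agent.R178

open TensorProduct

/-- A space with odd operators, a differential, and a compatible family of subspaces. -/
structure GM where
  W : Type
  [ag : AddCommGroup W]
  [md : Module ℂ W]
  ξ : Fin 2 → Fin 2 → Module.End ℂ W
  D : Module.End ℂ W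
  rel : GRel ξ D
  fam : ℤ → Submodule ℂ W
  ξ_mem : ∀ a b z w, w ∈ fam z → ξ a b w ∈ fam (z + 1)
  D_mem : ∀ z w, w ∈ fam z → D w ∈ fam (z + 1)

attribute [instance] GM.ag GM.md

/-- A representation of gl(2) (transposed convention). -/
structure TRep where
  M : Type
  [ag : AddCommGroup M]
  [md : Module ℂ M]
  T : Fin 2 → Fin 2 → Module.End ℂ M
  comm : ∀ i j k l m, T i j (T k l m) =
    T k l (T i j m) + (if i = l then T k j m else 0) - (if j = k then T i l m else 0)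

attribute [instance] TRep.ag TRep.md

namespace GM

lemma mem_congr (G : GM) {z z' : ℤ} (h : z = z') {w : G.W} (hw : w ∈ G.fam z) : w ∈ G.fam z' :=
  h ▸ hw

abbrev neg (G : GM) : GM where
  W := G.W
  ξ a b := -G.ξ a b
  D := -G.D
  rel := G.rel.neg
  fam := G.fam
  ξ_mem a b z w hw := Submodule.neg_mem _ (G.ξ_mem a b z w hw)
  D_mem z w hw := Submodule.neg_mem _ (G.D_mem z w hw)

/-- pairs of elements of a subspace -/
def pfam {W : Type} [AddCommGroup W] [Module ℂ W] (S : Submodule ℂ W) :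
    Submodule ℂ (Fin 2 → W) := Submodule.pi Set.univ fun _ => S

lemma mem_pfam {W : Type} [AddCommGroup W] [Module ℂ W] {S : Submodule ℂ W} {u : Fin 2 → W} :
    u ∈ pfam S ↔ ∀ k, u k ∈ S := by simp [pfam, Submodule.mem_pi]

abbrev tens (G : GM) : GM where
  W := Fin 2 → G.W
  ξ a b := pw (G.ξ a b)
  D := DV G.ξ G.D
  rel := G.rel.tens
  fam z := pfam (G.fam z)
  ξ_mem a b z w hw := by
    rw [mem_pfam] at *
    exact fun k => G.ξ_mem a b z _ (hw k)
  D_mem z w hw := by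
    rw [mem_pfam] at *
    intro k
    rw [DV_apply]
    exact Submodule.sub_mem _ (Submodule.add_mem _ (G.D_mem _ _ (hw k))
      (Submodule.add_mem _ (G.ξ_mem _ _ _ _ (hw 0)) (G.ξ_mem _ _ _ _ (hw 1))))
      (Submodule.add_mem _ (G.ξ_mem _ _ _ _ (hw k)) (G.ξ_mem _ _ _ _ (hw k)))

abbrev cone (G : GM) (c : ℂ) : GM where
  W := G.W × G.W
  ξ a b := coneX (G.ξ a b)
  D := coneD c G.D
  rel := G.rel.cone c
  fam z := (G.fam z).prod (G.fam (z - 1))
  ξ_mem a b z w hw := by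
    obtain ⟨h1, h2⟩ := hw
    exact ⟨G.ξ_mem a b z _ h1,
      Submodule.neg_mem _ (G.mem_congr (by ring) (G.ξ_mem a b _ _ h2))⟩
  D_mem z w hw := by
    obtain ⟨h1, h2⟩ := hw
    exact ⟨G.D_mem z _ h1, Submodule.sub_mem _ (Submodule.smul_mem _ _ (G.mem_congr (by ring) h1))
      (G.mem_congr (by ring) (G.D_mem _ _ h2))⟩

lemma sOp_mem {W : Type} [AddCommGroup W] [Module ℂ W] {S : Submodule ℂ W} (a b : Fin 2)
    {u : Fin 2 → W} (hu : u ∈ pfam S) : sOp a b u ∈ pfam S := by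
  rw [mem_pfam] at *
  intro k
  rw [sOp_apply]
  split_ifs
  · exact hu b
  · exact Submodule.zero_mem _

abbrev F (G : GM) : GM where
  W := (Fin 2 → G.W) × (Fin 2 → G.W)
  ξ := eta G.ξ
  D := DF G.ξ G.D
  rel := G.rel.eta
  fam z := (G.tens.fam z).prod (G.tens.fam (z - 1))
  ξ_mem a b z w hw := by
    obtain ⟨h1, h2⟩ := hw
    exact ⟨G.tens.ξ_mem a b z _ h1, Submodule.sub_mem _
      (G.tens.mem_congr (by ring) (sOp_mem a b h1))
      (G.tens.mem_congr (by ring) (G.tens.ξ_mem a b _ _ h2))⟩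
  D_mem z w hw := by
    obtain ⟨h1, h2⟩ := hw
    exact ⟨G.tens.D_mem z _ h1,
      Submodule.neg_mem _ (G.tens.mem_congr (by ring) (G.tens.D_mem _ _ h2))⟩

end GM

namespace TRep

/-- the action on pairs -/
def tT (N : TRep) (i j : Fin 2) : Module.End ℂ (Fin 2 → N.M) where
  toFun m k := N.T i j (m k) + (if k = j then m i else 0) - (if i = j then m k else 0)
  map_add' u v := by ext k; simp only [Pi.add_apply, map_add]; split_ifs <;> abel
  map_smul' c u := by
    ext k; simp only [Pi.smul_apply, map_smul, RingHom.id_apply, smul_add, smul_sub]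
    split_ifs <;> simp

lemma tT_apply (N : TRep) (i j : Fin 2) (m : Fin 2 → N.M) (k : Fin 2) :
    N.tT i j m k = N.T i j (m k) + (if k = j then m i else 0) - (if i = j then m k else 0) := rfl

abbrev tens (N : TRep) : TRep where
  M := Fin 2 → N.M
  T := N.tT
  comm i j k l m := by
    ext s
    have := N.comm i j k l (m s)
    rcases fin2 i with rfl | rfl <;> rcases fin2 j with rfl | rfl <;>
      rcases fin2 k with rfl | rfl <;> rcases fin2 l with rfl | rfl <;>
      rcases fin2 s with rfl | rfl <;> simp [tT_apply] at this ⊢ <;>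
      (try rw [this]) <;> abel

end TRep

/-- `G` is a Chevalley-Eilenberg complex of `N`. -/
structure IsCE (G : GM) (N : TRep) (ι : N.M →ₗ[ℂ] G.W) : Prop where
  ι_mem : ∀ m, ι m ∈ G.fam 0
  D_ι : ∀ m, G.D (ι m) = G.ξ 0 0 (ι (N.T 0 0 m)) + G.ξ 0 1 (ι (N.T 0 1 m)) +
    G.ξ 1 0 (ι (N.T 1 0 m)) + G.ξ 1 1 (ι (N.T 1 1 m))
  lift : ∀ (Y : Type) [AddCommGroup Y] [Module ℂ Y] (η : Fin 2 → Fin 2 → Module.End ℂ Y),
    Anti η → ∀ f : N.M →ₗ[ℂ] Y, ∃ φ : G.W →ₗ[ℂ] Y,
      (∀ a b w, φ (G.ξ a b w) = η a b (φ w)) ∧ ∀ m, φ (ι m) = f m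
  gen : ∀ S : Submodule ℂ G.W, (∀ m, ι m ∈ S) → (∀ a b w, w ∈ S → G.ξ a b w ∈ S) → ∀ w, w ∈ S
  fam_le : ∀ S : ℤ → Submodule ℂ G.W, (∀ m, ι m ∈ S 0) →
    (∀ a b z w, w ∈ G.fam z → w ∈ S z → G.ξ a b w ∈ S (z + 1)) → ∀ z w, w ∈ G.fam z → w ∈ S z

namespace IsCE

variable {G : GM} {N : TRep} {ι : N.M →ₗ[ℂ] G.W} (h : IsCE G N ι)
include h

/-- uniqueness of extensions -/
lemma eq_zero {Y : Type} [AddCommGroup Y] [Module ℂ Y] (η : Fin 2 → Fin 2 → Module.End ℂ Y)
    (φ : G.W →ₗ[ℂ] Y) (h1 : ∀ a b w, φ (G.ξ a b w) = η a b (φ w)) (h2 : ∀ m, φ (ι m) = 0)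
    (w : G.W) : φ w = 0 :=
  h.gen (LinearMap.ker φ) h2 (fun a b w hw => by
    rw [LinearMap.mem_ker] at *; rw [h1, hw, map_zero]) w

lemma ext {Y : Type} [AddCommGroup Y] [Module ℂ Y] (η : Fin 2 → Fin 2 → Module.End ℂ Y)
    (φ ψ : G.W →ₗ[ℂ] Y) (h1 : ∀ a b w, φ (G.ξ a b w) = η a b (φ w))
    (h1' : ∀ a b w, ψ (G.ξ a b w) = η a b (ψ w)) (h2 : ∀ m, φ (ι m) = ψ (ι m))
    (w : G.W) : φ w = ψ w := by
  have := h.eq_zero η (φ - ψ) (fun a b w => by simp [h1, h1']) (fun m => by simp [h2]) w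
  simpa [sub_eq_zero] using this

lemma ι_inj (m : N.M) (hm : ι m = 0) : m = 0 := by
  obtain ⟨φ, -, h2⟩ := h.lift N.M (fun _ _ => 0) (fun _ _ _ _ _ => by simp) LinearMap.id
  have := h2 m
  rw [hm, map_zero] at this
  exact this.symm

/-- a map intertwining the odd operators respects families -/
lemma map_mem {Y : Type} [AddCommGroup Y] [Module ℂ Y] (φ : G.W →ₗ[ℂ] Y)
    (S : ℤ → Submodule ℂ Y) (h0 : ∀ m, φ (ι m) ∈ S 0)
    (hs : ∀ a b z w, w ∈ G.fam z → φ w ∈ S z → φ (G.ξ a b w) ∈ S (z + 1)) (z : ℤ) (w : G.W)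
    (hw : w ∈ G.fam z) : φ w ∈ S z :=
  h.fam_le (fun z => (S z).comap φ) h0 hs z w hw

lemma neg_bot {z : ℤ} (hz : z < 0) (w : G.W) (hw : w ∈ G.fam z) : w = 0 := by
  have := h.fam_le (fun z => if z < 0 then ⊥ else ⊤) (fun m => by simp)
    (fun a b z w _ hw => by
      by_cases h1 : z + 1 < 0
      · have h2 : z < 0 := by omega
        simp only [h1, h2, if_true, Submodule.mem_bot] at hw ⊢
        rw [hw, map_zero]
      · simp [h1]) z w hw
  simpa [hz] using this

lemma zero_range (w : G.W) (hw : w ∈ G.fam 0) : ∃ m, ι m = w := by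
  have := h.fam_le (fun z => if z = 0 then LinearMap.range ι else ⊤) (fun m => by simp)
    (fun a b z w hw _ => by
      by_cases h1 : z + 1 = 0
      · rw [h.neg_bot (by omega) w hw]; simp
      · simp [h1]) 0 w hw
  simpa using this

omit h in
lemma prod_zero {W : Type} [AddCommGroup W] [Module ℂ W] {ξ : Fin 2 → Fin 2 → Module.End ℂ W}
    (hξ : Anti ξ) (q : Fin 2 × Fin 2) :
    ∀ l : List (Fin 2 × Fin 2), q ∈ l → ∀ w, ξ q.1 q.2 ((l.map fun q => ξ q.1 q.2).prod w) = 0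
  | [], hq, _ => by simp at hq
  | q' :: l, hq, w => by
    simp only [List.map_cons, List.prod_cons, Module.End.mul_apply]
    by_cases hqq : q = q'
    · rw [hqq, hξ.sq]
    · rw [hξ, prod_zero hξ q l (by simpa [hqq] using hq), map_zero, neg_zero]

omit h in
lemma prod_zero' {W : Type} [AddCommGroup W] [Module ℂ W] {ξ : Fin 2 → Fin 2 → Module.End ℂ W}
    (hξ : Anti ξ) :
    ∀ l : List (Fin 2 × Fin 2), ¬ l.Nodup → ∀ w, (l.map fun q => ξ q.1 q.2).prod w = 0
  | [], hq, _ => by simp at hq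
  | q :: l, hq, w => by
    simp only [List.map_cons, List.prod_cons, Module.End.mul_apply]
    by_cases hqq : q ∈ l
    · exact prod_zero hξ q l hqq w
    · rw [prod_zero' hξ l (by simpa [hqq] using hq), map_zero]

omit h in
/-- span of the words of a given length -/
def wordSpan {W M : Type} [AddCommGroup W] [Module ℂ W] [AddCommGroup M] [Module ℂ M]
    (ξ : Fin 2 → Fin 2 → Module.End ℂ W) (ι : M →ₗ[ℂ] W) (z : ℤ) : Submodule ℂ W :=
  Submodule.span ℂ {w | ∃ l : List (Fin 2 × Fin 2),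
      (l.length : ℤ) = z ∧ ∃ m, w = (l.map fun q => ξ q.1 q.2).prod (ι m)}

omit h in
lemma wordSpan_zero {W M : Type} [AddCommGroup W] [Module ℂ W] [AddCommGroup M] [Module ℂ M]
    (ξ : Fin 2 → Fin 2 → Module.End ℂ W) (ι : M →ₗ[ℂ] W) (m : M) : ι m ∈ wordSpan ξ ι 0 :=
  Submodule.subset_span ⟨[], by simp, m, by simp⟩

omit h in
lemma wordSpan_step {W M : Type} [AddCommGroup W] [Module ℂ W] [AddCommGroup M] [Module ℂ M]
    (ξ : Fin 2 → Fin 2 → Module.End ℂ W) (ι : M →ₗ[ℂ] W) (a b : Fin 2) (z : ℤ) (w : W)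
    (hw : w ∈ wordSpan ξ ι z) : ξ a b w ∈ wordSpan ξ ι (z + 1) := by
  induction hw using Submodule.span_induction with
  | mem y hy =>
    obtain ⟨l, hl, m, rfl⟩ := hy
    exact Submodule.subset_span ⟨(a, b) :: l, by simp [hl], m, by simp⟩
  | zero => simp
  | add y y' hy hy' ih ih' => rw [map_add]; exact Submodule.add_mem _ ih ih'
  | smul c y hy ih => rw [map_smul]; exact Submodule.smul_mem _ _ ih

omit h in
lemma wordSpan_le {W M : Type} [AddCommGroup W] [Module ℂ W] [AddCommGroup M] [Module ℂ M]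
    (ξ : Fin 2 → Fin 2 → Module.End ℂ W) (ι : M →ₗ[ℂ] W) (S : ℤ → Submodule ℂ W)
    (h0 : ∀ m, ι m ∈ S 0)
    (hs : ∀ a b z w, w ∈ wordSpan ξ ι z → w ∈ S z → ξ a b w ∈ S (z + 1)) (z : ℤ) (w : W)
    (hw : w ∈ wordSpan ξ ι z) : w ∈ S z := by
  have key : ∀ (l : List (Fin 2 × Fin 2)) (m : M),
      (l.map fun q => ξ q.1 q.2).prod (ι m) ∈ S l.length := by
    intro l m
    induction l with
    | nil => simpa using h0 m
    | cons q l ih =>
      simp only [List.map_cons, List.prod_cons, Module.End.mul_apply, List.length_cons,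
        Nat.cast_add, Nat.cast_one]
      exact hs _ _ _ _ (Submodule.subset_span ⟨l, rfl, m, rfl⟩) ih
  refine (Submodule.span_le.mpr ?_ : wordSpan ξ ι z ≤ S z) hw
  rintro _ ⟨l, rfl, m, rfl⟩
  exact key l m

lemma five (w : G.W) (hw : w ∈ G.fam 5) : w = 0 := by
  have := h.fam_le (wordSpan G.ξ ι) (wordSpan_zero _ _)
    (fun a b z w _ hw => wordSpan_step _ _ a b z w hw) 5 w hw
  have hle : wordSpan G.ξ ι 5 ≤ ⊥ := by
    refine Submodule.span_le.mpr ?_
    rintro _ ⟨l, hl, m, rfl⟩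
    refine prod_zero' G.rel.xx l (fun hn => ?_) _
    have := hn.length_le_card
    simp at this
    omega
  simpa using hle this

lemma finite [FiniteDimensional ℂ N.M] : FiniteDimensional ℂ G.W := by
  let V : ℕ → Submodule ℂ G.W := fun k => Nat.rec (LinearMap.range ι)
    (fun _ S => ⨆ q : Fin 2 × Fin 2, S.map (G.ξ q.1 q.2)) k
  have hV : ∀ k, (V k).FG := by
    intro k
    induction k with
    | zero => exact (Submodule.fg_range ι)
    | succ k ih => exact Submodule.fg_iSup _ fun q => ih.map _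
  have hle : ∀ z w, w ∈ G.fam z → w ∈ V z.toNat := by
    refine h.fam_le (fun z => V z.toNat) (fun m => ⟨m, rfl⟩) (fun a b z w hw hw' => ?_)
    by_cases hz : z < 0
    · rw [h.neg_bot hz w hw]; simp
    · have : (z + 1).toNat = z.toNat + 1 := by omega
      rw [this]
      exact Submodule.mem_iSup_of_mem (a, b) ⟨w, hw', rfl⟩
  have htop : ∀ w, w ∈ ⨆ k : Fin 5, G.fam k := by
    refine h.gen _ (fun m => Submodule.mem_iSup_of_mem (0 : Fin 5) (h.ι_mem m)) ?_
    intro a b w hw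
    refine Submodule.iSup_induction (fun k : Fin 5 => G.fam k)
      (motive := fun w => G.ξ a b w ∈ ⨆ k : Fin 5, G.fam k) hw (fun k v hv => ?_) (by simp)
      (fun x y hx hy => by rw [map_add]; exact Submodule.add_mem _ hx hy)
    have h1 := G.ξ_mem a b _ _ hv
    by_cases hk : (k : ℕ) + 1 < 5
    · exact Submodule.mem_iSup_of_mem (⟨k + 1, hk⟩ : Fin 5) (G.mem_congr (by simp) h1)
    · rw [h.five _ (G.mem_congr (by omega) h1)]; simp
  refine ⟨?_⟩
  have : (⊤ : Submodule ℂ G.W) = ⨆ k : Fin 5, V k := by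
    refine le_antisymm (fun w _ => ?_) le_top
    refine (iSup_mono fun k : Fin 5 => ?_ :
      (⨆ k : Fin 5, G.fam k) ≤ ⨆ k : Fin 5, V k) (htop w)
    intro v hv
    simpa using hle _ v hv
  rw [this]
  exact Submodule.fg_iSup _ fun k => hV k

lemma neg : IsCE G.neg N ι where
  ι_mem := h.ι_mem
  D_ι m := by simp [h.D_ι]; abel
  lift Y _ _ η hη f := by
    obtain ⟨φ, h1, h2⟩ := h.lift Y (fun a b => -η a b) hη.neg f
    exact ⟨φ, fun a b w => by simp [h1], h2⟩
  gen S h0 hs := h.gen S h0 fun a b w hw => by simpa using hs a b w hw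
  fam_le S h0 hs := h.fam_le S h0 fun a b z w hw hw' => by simpa using hs a b z w hw hw'

omit h in
/-- pointwise linear map on pairs -/
def pmap {M W : Type} [AddCommGroup W] [Module ℂ W] [AddCommGroup M] [Module ℂ M]
    (ι : M →ₗ[ℂ] W) : (Fin 2 → M) →ₗ[ℂ] (Fin 2 → W) where
  toFun u k := ι (u k)
  map_add' u v := by ext k; simp
  map_smul' c u := by ext k; simp

omit h in
@[simp] lemma pmap_apply {M W : Type} [AddCommGroup W] [Module ℂ W] [AddCommGroup M] [Module ℂ M]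
    (ι : M →ₗ[ℂ] W) (u : Fin 2 → M) (k : Fin 2) : pmap ι u k = ι (u k) := rfl

omit h in
lemma pair_eq {W : Type} [AddCommGroup W] (u : Fin 2 → W) :
    u = Pi.single 0 (u 0) + Pi.single 1 (u 1) := by
  ext k; rcases fin2 k with rfl | rfl <;> simp

omit h in
lemma pw_single {W : Type} [AddCommGroup W] [Module ℂ W] (T : Module.End ℂ W) (k : Fin 2) (w : W) :
    pw T (Pi.single k w) = Pi.single k (T w) := by
  ext l; by_cases hl : l = k
  · subst hl; simp
  · simp [hl]

omit h in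
lemma pmap_single {M W : Type} [AddCommGroup W] [Module ℂ W] [AddCommGroup M] [Module ℂ M]
    (ι : M →ₗ[ℂ] W) (k : Fin 2) (w : M) :
    pmap ι (Pi.single k w) = Pi.single k (ι w) := by
  ext l; by_cases hl : l = k
  · subst hl; simp
  · simp [hl]

lemma tens : IsCE G.tens N.tens (pmap ι) where
  ι_mem m := GM.mem_pfam.mpr fun k => h.ι_mem _
  D_ι m := by
    ext k
    rcases fin2 k with rfl | rfl <;> simp [DV_apply, TRep.tT_apply, h.D_ι] <;> abel
  lift Y _ _ η hη f := by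
    obtain ⟨φ0, h1, h2⟩ := h.lift Y η hη (f ∘ₗ LinearMap.single ℂ (fun _ : Fin 2 => N.M) 0)
    obtain ⟨φ1, h3, h4⟩ := h.lift Y η hη (f ∘ₗ LinearMap.single ℂ (fun _ : Fin 2 => N.M) 1)
    refine ⟨φ0 ∘ₗ LinearMap.proj 0 + φ1 ∘ₗ LinearMap.proj 1, fun a b w => by simp [h1, h3],
      fun m => ?_⟩
    conv_rhs => rw [pair_eq m]
    simp [h2, h4]
  gen S h0 hs u := by
    have key : ∀ k w, Pi.single k w ∈ S := fun k =>
      h.gen (S.comap (LinearMap.single ℂ (fun _ : Fin 2 => G.W) k))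
        (fun m => by simpa [pmap_single] using h0 (Pi.single k m))
        (fun a b w hw => by simpa [pw_single] using hs a b _ hw)
    rw [pair_eq u]
    exact S.add_mem (key _ _) (key _ _)
  fam_le S h0 hs z u hu := by
    have key : ∀ k z w, w ∈ G.fam z → Pi.single k w ∈ S z := fun k =>
      h.fam_le (fun z => (S z).comap (LinearMap.single ℂ (fun _ : Fin 2 => G.W) k))
        (fun m => by simpa [pmap_single] using h0 (Pi.single k m))
        (fun a b z w hw hw' => by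
          have : Pi.single k w ∈ G.tens.fam z := GM.mem_pfam.mpr fun l => by
            by_cases hl : l = k
            · subst hl; simpa using hw
            · simp [hl]
          simpa [pw_single] using hs a b z _ this hw')
    rw [pair_eq u]
    exact (S z).add_mem (key _ _ _ (GM.mem_pfam.mp hu 0)) (key _ _ _ (GM.mem_pfam.mp hu 1))

end IsCE

/-! ### Existence -/

abbrev Lam : Type := ExteriorAlgebra ℂ (Fin 2 × Fin 2 → ℂ)

noncomputable def lamX (a b : Fin 2) : Lam := ExteriorAlgebra.ι ℂ (Pi.single (a, b) (1 : ℂ))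

section std

variable (M : Type) [AddCommGroup M] [Module ℂ M]

noncomputable def stdX (a b : Fin 2) : Module.End ℂ (Lam ⊗[ℂ] M) :=
  (LinearMap.mulLeft ℂ (lamX a b)).rTensor M

noncomputable def stdι : M →ₗ[ℂ] Lam ⊗[ℂ] M := TensorProduct.mk ℂ Lam M 1

lemma stdX_anti : Anti (stdX M) := by
  intro a b a' b' w
  induction w using TensorProduct.induction_on with
  | zero => simp
  | tmul x m =>
    simp only [stdX, LinearMap.rTensor_tmul, LinearMap.mulLeft_apply, ← mul_assoc, ← neg_tmul,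
      ← neg_mul]
    have : lamX a b * lamX a' b' = -(lamX a' b' * lamX a b) :=
      eq_neg_of_add_eq_zero_left (ExteriorAlgebra.ι_add_mul_swap (R := ℂ)
        (Pi.single (a, b) (1 : ℂ) : Fin 2 × Fin 2 → ℂ) (Pi.single (a', b') (1 : ℂ)))
    rw [this, neg_mul (lamX a' b')]
  | add x y hx hy => simp only [map_add, hx, hy]; abel

lemma std_lift (Y : Type) [AddCommGroup Y] [Module ℂ Y] (η : Fin 2 → Fin 2 → Module.End ℂ Y)
    (hη : Anti η) (f : M →ₗ[ℂ] Y) : ∃ φ : Lam ⊗[ℂ] M →ₗ[ℂ] Y,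
      (∀ a b w, φ (stdX M a b w) = η a b (φ w)) ∧ ∀ m, φ (stdι M m) = f m := by
  let g : (Fin 2 × Fin 2 → ℂ) →ₗ[ℂ] Module.End ℂ Y :=
    Fintype.linearCombination ℂ (fun q : Fin 2 × Fin 2 => η q.1 q.2)
  have hg : ∀ v, g v * g v = 0 := by
    intro v
    ext y
    simp only [g, Fintype.linearCombination_apply, Fintype.sum_prod_type, Fin.sum_univ_two,
      Module.End.mul_apply, LinearMap.add_apply, LinearMap.smul_apply, map_add, map_smul,
      hη.o1, hη.o2, hη.o3, hη.o4, hη.o5, hη.o6, hη.sq, LinearMap.zero_apply]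
    module
  let ρ : Lam →ₐ[ℂ] Module.End ℂ Y := ExteriorAlgebra.lift ℂ ⟨g, hg⟩
  have hρ : ∀ a b, ρ (lamX a b) = η a b := by
    intro a b
    simp [ρ, lamX, g, Fintype.linearCombination_apply_single]
  let B : Lam →ₗ[ℂ] M →ₗ[ℂ] Y :=
    { toFun := fun x => ρ x ∘ₗ f
      map_add' := fun x y => by ext m; simp
      map_smul' := fun c x => by ext m; simp }
  refine ⟨TensorProduct.lift B, fun a b w => ?_,
    fun m => by simp [stdι, B]⟩
  induction w using TensorProduct.induction_on with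
  | zero => simp
  | tmul x m => simp [stdX, hρ, B]
  | add x y hx hy => simp [hx, hy]

lemma std_gen (S : Submodule ℂ (Lam ⊗[ℂ] M)) (h0 : ∀ m, stdι M m ∈ S)
    (hs : ∀ a b w, w ∈ S → stdX M a b w ∈ S) (w : Lam ⊗[ℂ] M) : w ∈ S := by
  have key : ∀ x : Lam, ∀ w ∈ S, (LinearMap.mulLeft ℂ x).rTensor M w ∈ S := by
    intro x
    induction x using ExteriorAlgebra.induction with
    | algebraMap c =>
      intro w hw
      have : (LinearMap.mulLeft ℂ (algebraMap ℂ Lam c)).rTensor M = c • LinearMap.id := by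
        ext x m; simp [Algebra.algebraMap_eq_smul_one, smul_tmul']
      rw [this]; exact S.smul_mem c hw
    | ι v =>
      intro w hw
      have : (LinearMap.mulLeft ℂ (ExteriorAlgebra.ι ℂ v : Lam)).rTensor M =
          ∑ q : Fin 2 × Fin 2, v q • stdX M q.1 q.2 := by
        have hv : (ExteriorAlgebra.ι ℂ v : Lam) = ∑ q : Fin 2 × Fin 2, v q • lamX q.1 q.2 := by
          conv_lhs => rw [pi_eq_sum_univ' v]
          simp [lamX, map_sum]
        ext x m
        simp [hv, stdX, Finset.sum_mul, sum_tmul, smul_tmul']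
      rw [this, LinearMap.sum_apply]
      exact S.sum_mem fun q _ => S.smul_mem _ (hs _ _ _ hw)
    | mul a b ha hb =>
      intro w hw
      have : (LinearMap.mulLeft ℂ (a * b)).rTensor M w =
          (LinearMap.mulLeft ℂ a).rTensor M ((LinearMap.mulLeft ℂ b).rTensor M w) := by
        rw [LinearMap.mulLeft_mul, LinearMap.rTensor_comp]; rfl
      rw [this]; exact ha _ (hb _ hw)
    | add a b ha hb =>
      intro w hw
      have : (LinearMap.mulLeft ℂ (a + b)).rTensor M =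
          (LinearMap.mulLeft ℂ a).rTensor M + (LinearMap.mulLeft ℂ b).rTensor M := by
        ext x m; simp [add_mul, add_tmul]
      rw [this]; exact S.add_mem (ha _ hw) (hb _ hw)
  induction w using TensorProduct.induction_on with
  | zero => simp
  | tmul x m => simpa [stdι] using key x _ (h0 m)
  | add x y hx hy => exact S.add_mem hx hy

end std

/-- auxiliary operators used to build the differential -/
def auxX {W : Type} [AddCommGroup W] [Module ℂ W] (ξ : Fin 2 → Fin 2 → Module.End ℂ W)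
    (a b : Fin 2) : Module.End ℂ (W × W) where
  toFun u := (ξ a b u.1, ξ a 0 (ξ 0 b u.1) + ξ a 1 (ξ 1 b u.1) - ξ a b u.2)
  map_add' u v := by ext <;> simp; abel
  map_smul' c u := by ext <;> simp [smul_add, smul_sub]

lemma auxX_apply {W : Type} [AddCommGroup W] [Module ℂ W] (ξ : Fin 2 → Fin 2 → Module.End ℂ W)
    (a b : Fin 2) (u : W × W) :
    auxX ξ a b u = (ξ a b u.1, ξ a 0 (ξ 0 b u.1) + ξ a 1 (ξ 1 b u.1) - ξ a b u.2) := rfl

lemma auxX_anti {W : Type} [AddCommGroup W] [Module ℂ W] {ξ : Fin 2 → Fin 2 → Module.End ℂ W}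
    (h : Anti ξ) : Anti (auxX ξ) := by
  intro a b a' b' u
  ext
  · simp [auxX_apply, h a b a' b']
  · rcases fin2 a with rfl | rfl <;> rcases fin2 b with rfl | rfl <;>
    rcases fin2 a' with rfl | rfl <;> rcases fin2 b' with rfl | rfl <;>
    simp [auxX_apply, h.o1, h.o2, h.o3, h.o4, h.o5, h.o6, h.sq] <;> abel

theorem exists_CE (N : TRep) : ∃ (G : GM) (ι : N.M →ₗ[ℂ] G.W), IsCE G N ι := by
  set ξ := stdX N.M with hξ
  set ι := stdι N.M with hι
  have hx : Anti ξ := stdX_anti N.M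
  let f : N.M →ₗ[ℂ] (Lam ⊗[ℂ] N.M) := ξ 0 0 ∘ₗ ι ∘ₗ N.T 0 0 + ξ 0 1 ∘ₗ ι ∘ₗ N.T 0 1 +
    ξ 1 0 ∘ₗ ι ∘ₗ N.T 1 0 + ξ 1 1 ∘ₗ ι ∘ₗ N.T 1 1
  obtain ⟨φ, h1, h2⟩ := std_lift N.M _ (auxX ξ) (auxX_anti hx) (ι.prod f)
  rw [← hι] at h2
  have hfst : ∀ w, (φ w).1 = w := by
    intro w
    refine std_gen N.M (LinearMap.eqLocus (LinearMap.fst ℂ _ _ ∘ₗ φ) LinearMap.id)
      (fun m => ?_) (fun a b w hw => ?_) w
    · simp [LinearMap.mem_eqLocus, h2, ← hι]
    · simp only [LinearMap.mem_eqLocus, LinearMap.comp_apply, LinearMap.fst_apply,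
        LinearMap.id_apply] at hw ⊢
      rw [h1, auxX_apply, hw]
  let D : Module.End ℂ (Lam ⊗[ℂ] N.M) := LinearMap.snd ℂ _ _ ∘ₗ φ
  have hdx : ∀ a b w, D (ξ a b w) = ξ a 0 (ξ 0 b w) + ξ a 1 (ξ 1 b w) - ξ a b (D w) := by
    intro a b w
    simp only [D, LinearMap.comp_apply, LinearMap.snd_apply]
    rw [h1, auxX_apply, hfst]
  have hdι : ∀ m, D (ι m) = ξ 0 0 (ι (N.T 0 0 m)) + ξ 0 1 (ι (N.T 0 1 m)) +
      ξ 1 0 (ι (N.T 1 0 m)) + ξ 1 1 (ι (N.T 1 1 m)) := by
    intro m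
    simp [D, h2, f]
  have hdd : ∀ w, D (D w) = 0 := by
    intro w
    refine std_gen N.M (LinearMap.ker (D ∘ₗ D)) (fun m => ?_) (fun a b w hw => ?_) w
    · have c1 := N.comm 0 1 0 0 m
      have c2 := N.comm 1 0 0 0 m
      have c3 := N.comm 1 1 0 0 m
      have c4 := N.comm 1 0 0 1 m
      have c5 := N.comm 1 1 0 1 m
      have c6 := N.comm 1 1 1 0 m
      simp at c1 c2 c3 c4 c5 c6
      simp only [LinearMap.mem_ker, LinearMap.comp_apply, ← hι, hdι, map_add, hdx, c1, c2, c3,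
        c4, c5, c6, map_sub, hx.o1, hx.o2, hx.o3, hx.o4, hx.o5, hx.o6, hx.sq]
      abel
    · simp only [LinearMap.mem_ker, LinearMap.comp_apply, ← hξ] at hw ⊢
      rcases fin2 a with rfl | rfl <;> rcases fin2 b with rfl | rfl <;>
      simp [hdx, hw, hx.o1, hx.o2, hx.o4, hx.o6, hx.sq] <;> abel
  have hDmem : ∀ z w, w ∈ IsCE.wordSpan ξ ι z → D w ∈ IsCE.wordSpan ξ ι (z + 1) := by
    refine IsCE.wordSpan_le ξ ι (fun z => (IsCE.wordSpan ξ ι (z + 1)).comap D) (fun m => ?_)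
      (fun a b z w hw hw' => ?_)
    · simp only [Submodule.mem_comap, hdι]
      have := fun a b m => IsCE.wordSpan_step ξ ι a b 0 _ (IsCE.wordSpan_zero ξ ι m)
      exact Submodule.add_mem _ (Submodule.add_mem _ (Submodule.add_mem _ (this _ _ _)
        (this _ _ _)) (this _ _ _)) (this _ _ _)
    · simp only [Submodule.mem_comap, hdx] at hw' ⊢
      have st := IsCE.wordSpan_step ξ ι
      exact Submodule.sub_mem _ (Submodule.add_mem _ (st _ _ _ _ (st _ _ _ _ hw))
        (st _ _ _ _ (st _ _ _ _ hw))) (st _ _ _ _ hw')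
  exact ⟨{ W := Lam ⊗[ℂ] N.M, ξ := ξ, D := D, rel := ⟨hx, hdx, hdd⟩, fam := IsCE.wordSpan ξ ι,
           ξ_mem := IsCE.wordSpan_step ξ ι, D_mem := hDmem }, ι,
    ⟨IsCE.wordSpan_zero ξ ι, hdι, std_lift N.M, std_gen N.M, IsCE.wordSpan_le ξ ι⟩⟩

end Crest.Agent.R178
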