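import Crest.Agent.R178.CE

/-!
Representations of gl(2) with the central character of a symmetric power, and translation.
-/

set_option autoImplicit false

namespace Crest.Agent.R178

open Module

namespace TRep

variable (N : TRep)

/-- the operator `T + 1` on pairs -/
def y : Module.End ℂ (Fin 2 → N.M) where
  toFun m k := N.T k 0 (m 0) + N.T k 1 (m 1) + m k
  map_add' u v := by ext k; simp; abel
  map_smul' c u := by ext k; simp [smul_add]

lemma y_apply (m : Fin 2 → N.M) (k : Fin 2) : N.y m k = N.T k 0 (m 0) + N.T k 1 (m 1) + m k := rfl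

lemma c1 (m : N.M) : N.T 0 1 (N.T 0 0 m) = N.T 0 0 (N.T 0 1 m) + N.T 0 1 m := by
  simpa using N.comm 0 1 0 0 m
lemma c2 (m : N.M) : N.T 1 0 (N.T 0 0 m) = N.T 0 0 (N.T 1 0 m) - N.T 1 0 m := by
  simpa using N.comm 1 0 0 0 m
lemma c3 (m : N.M) : N.T 1 1 (N.T 0 0 m) = N.T 0 0 (N.T 1 1 m) := by
  simpa using N.comm 1 1 0 0 m
lemma c4 (m : N.M) : N.T 1 0 (N.T 0 1 m) = N.T 0 1 (N.T 1 0 m) + N.T 0 0 m - N.T 1 1 m := by
  simpa using N.comm 1 0 0 1 m
lemma c5 (m : N.M) : N.T 1 1 (N.T 0 1 m) = N.T 0 1 (N.T 1 1 m) + N.T 0 1 m := by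
  simpa using N.comm 1 1 0 1 m
lemma c6 (m : N.M) : N.T 1 1 (N.T 1 0 m) = N.T 1 0 (N.T 1 1 m) - N.T 1 0 m := by
  simpa using N.comm 1 1 1 0 m

lemma y_comm (i j : Fin 2) (m : Fin 2 → N.M) : N.y (N.tT i j m) = N.tT i j (N.y m) := by
  ext k
  rcases fin2 i with rfl | rfl <;> rcases fin2 j with rfl | rfl <;>
    rcases fin2 k with rfl | rfl <;>
    simp [y_apply, tT_apply, N.c1, N.c2, N.c3, N.c4, N.c5, N.c6] <;> abel

/-- central character of the `n`-th symmetric power -/
structure IsType (n : ℕ) : Prop where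
  tr : ∀ m, N.T 1 1 m = (n : ℂ) • m - N.T 0 0 m
  det : ∀ m, N.T 0 1 (N.T 1 0 m) = N.T 0 0 (N.T 1 1 m) + N.T 1 1 m

variable {N} in
lemma IsType.y_y {n : ℕ} (h : N.IsType n) (m : Fin 2 → N.M) :
    N.y (N.y m) = ((n : ℂ) + 1) • N.y m := by
  ext k
  rcases fin2 k with rfl | rfl <;>
    simp only [y_apply, map_add, N.c1, N.c2, N.c4, h.det, h.tr, map_sub, map_smul,
      Pi.smul_apply] <;> module

/-- subrepresentation -/
abbrev sub (S : Submodule ℂ N.M) (hS : ∀ i j, ∀ m ∈ S, N.T i j m ∈ S) : TRep where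
  M := S
  T i j := (N.T i j).restrict (hS i j)
  comm i j k l m := Subtype.ext (by
    have := N.comm i j k l m
    simp only [LinearMap.coe_restrict_apply, AddSubgroupClass.coe_sub, Submodule.coe_add, this]
    split_ifs <;> simp)

/-- twist by the determinant -/
abbrev twist : TRep where
  M := N.M
  T i j := N.T i j + if i = j then 1 else 0
  comm i j k l m := by
    have := N.comm i j k l m
    rcases fin2 i with rfl | rfl <;> rcases fin2 j with rfl | rfl <;>
      rcases fin2 k with rfl | rfl <;> rcases fin2 l with rfl | rfl <;>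
      simp at this ⊢ <;> (try rw [this]) <;> abel

abbrev down : TRep := N.tens.sub (LinearMap.ker N.y) fun i j m hm => by
  rw [LinearMap.mem_ker] at *
  exact (N.y_comm i j m).trans (by rw [hm, map_zero])

abbrev upR : TRep := N.tens.twist.sub (LinearMap.range N.y) fun i j m hm => by
  obtain ⟨m, rfl⟩ := hm
  refine ⟨N.tens.twist.T i j m, ?_⟩
  by_cases h : i = j <;> simp [h, N.y_comm]

variable {N}

lemma IsType.down {n : ℕ} (h : N.IsType (n + 1)) : N.down.IsType n where
  tr m := by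
    ext k
    rcases fin2 k with rfl | rfl <;> simp [tT_apply, h.tr] <;> module
  det m := by
    have hm : N.y m.1 = 0 := m.2
    ext k
    have hk := congrFun hm k
    rcases fin2 k with rfl | rfl <;> simp [tT_apply, h.det, y_apply] at hk ⊢
    · linear_combination (norm := module) hk
    · linear_combination (norm := module) hk

lemma IsType.upR {n : ℕ} (h : N.IsType n) : N.upR.IsType (n + 1) where
  tr m := by
    ext k
    rcases fin2 k with rfl | rfl <;> simp [tT_apply, h.tr] <;> module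
  det m := by
    obtain ⟨m, m', rfl⟩ := m
    have hm := h.y_y m'
    generalize_proofs
    ext k
    have hk := congrFun hm k
    simp only [LinearMap.coe_restrict_apply, Submodule.coe_add]
    generalize N.y m' = u at hk ⊢
    rcases fin2 k with rfl | rfl <;> simp [tT_apply, h.det, y_apply, h.tr] at hk ⊢
    · linear_combination (norm := module) hk
    · linear_combination (norm := module) hk

lemma trace_y [FiniteDimensional ℂ N.M] {n : ℕ} (h : N.IsType n) :
    LinearMap.trace ℂ _ N.y = ((n : ℂ) + 2) * finrank ℂ N.M := by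
  have key : ∀ (k l : Fin 2) (f : Module.End ℂ N.M),
      LinearMap.trace ℂ _ (LinearMap.single ℂ (fun _ : Fin 2 => N.M) k ∘ₗ
        (f ∘ₗ LinearMap.proj l)) = if k = l then LinearMap.trace ℂ _ f else 0 := by
    intro k l f
    rw [LinearMap.trace_comp_comm']
    split_ifs with hkl
    · subst hkl; congr 1; ext m; simp
    · have : (f ∘ₗ LinearMap.proj l) ∘ₗ LinearMap.single ℂ (fun _ : Fin 2 => N.M) k = 0 := by
        ext m; simp [Pi.single_eq_of_ne (Ne.symm hkl)]
      rw [this, map_zero]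
  have hy : N.y = LinearMap.single ℂ (fun _ : Fin 2 => N.M) 0 ∘ₗ
        ((N.T 0 0 + 1) ∘ₗ LinearMap.proj 0) +
      LinearMap.single ℂ (fun _ : Fin 2 => N.M) 0 ∘ₗ (N.T 0 1 ∘ₗ LinearMap.proj 1) +
      LinearMap.single ℂ (fun _ : Fin 2 => N.M) 1 ∘ₗ (N.T 1 0 ∘ₗ LinearMap.proj 0) +
      LinearMap.single ℂ (fun _ : Fin 2 => N.M) 1 ∘ₗ ((N.T 1 1 + 1) ∘ₗ LinearMap.proj 1) := by
    refine LinearMap.ext fun m => ?_
    ext k
    rcases fin2 k with rfl | rfl <;> simp [y_apply] <;> abel
  have h11 : N.T 1 1 = (n : ℂ) • (1 : Module.End ℂ N.M) - N.T 0 0 := by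
    ext m; simp [h.tr]
  rw [hy]
  simp only [map_add, key, h11, map_sub, map_smul, LinearMap.trace_one]
  simp
  ring

lemma rank_y [FiniteDimensional ℂ N.M] {n : ℕ} (h : N.IsType n) :
    (n + 1) * finrank ℂ (LinearMap.range N.y) = (n + 2) * finrank ℂ N.M := by
  have hn : ((n : ℂ) + 1) ≠ 0 := by exact_mod_cast Nat.succ_ne_zero n
  have hp : LinearMap.IsProj (LinearMap.range N.y) (((n : ℂ) + 1)⁻¹ • N.y) :=
    ⟨fun m => Submodule.smul_mem _ _ ⟨m, rfl⟩, by
      rintro _ ⟨m, rfl⟩
      simp [h.y_y, smul_smul, hn]⟩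
  have := hp.trace
  rw [map_smul, trace_y h, smul_eq_mul] at this
  have h2 : ((n : ℂ) + 1) * finrank ℂ (LinearMap.range N.y) = ((n : ℂ) + 2) * finrank ℂ N.M := by
    rw [← this]; field_simp
  exact_mod_cast h2

lemma rank_down [FiniteDimensional ℂ N.M] {n : ℕ} (h : N.IsType n) :
    (n + 1) * finrank ℂ N.down.M = n * finrank ℂ N.M := by
  have h1 := rank_y h
  have h2 := LinearMap.finrank_range_add_finrank_ker N.y
  rw [finrank_pi_fintype, Finset.sum_const, Finset.card_univ, Fintype.card_fin, smul_eq_mul] at h2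
  change (n + 1) * finrank ℂ (LinearMap.ker N.y) = _
  nlinarith

theorem exists_type (n : ℕ) :
    ∃ N : TRep, N.IsType n ∧ FiniteDimensional ℂ N.M ∧ 0 < finrank ℂ N.M := by
  induction n with
  | zero =>
    exact ⟨{ M := ℂ, T := fun _ _ => 0, comm := by simp }, ⟨by simp, by simp⟩, inferInstance,
      by simp⟩
  | succ n ih =>
    obtain ⟨N, h1, h2, h3⟩ := ih
    refine ⟨N.upR, h1.upR, inferInstance, ?_⟩
    have := rank_y h1
    change 0 < finrank ℂ (LinearMap.range N.y)
    refine Nat.pos_of_ne_zero fun h0 => ?_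
    rw [h0] at this
    have : 0 < (n + 2) * finrank ℂ N.M := by positivity
    omega

end TRep

end Crest.Agent.R178
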