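import Crest.Agent.R178.Bounds
import Crest.Agent.R178.Types

/-!
Decomposition of the translated module.
-/

set_option autoImplicit false

namespace Crest.Agent.R178

lemma IsCE.D_comm {G G' : GM} {N : TRep} {ι : N.M →ₗ[ℂ] G.W} (h : IsCE G N ι)
    (φ : G.W →ₗ[ℂ] G'.W) (h1 : ∀ a b w, φ (G.ξ a b w) = G'.ξ a b (φ w))
    (h2 : ∀ m, φ (G.D (ι m)) = G'.D (φ (ι m))) (w : G.W) : φ (G.D w) = G'.D (φ w) := by
  have := h.eq_zero (fun a b => -G'.ξ a b) (φ ∘ₗ G.D - G'.D ∘ₗ φ)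
    (fun a b w => by simp [G.rel.dx, G'.rel.dx, h1]) (fun m => by simp [h2]) w
  simpa [sub_eq_zero] using this

lemma DV_sOp {W : Type} [AddCommGroup W] [Module ℂ W] (ξ : Fin 2 → Fin 2 → Module.End ℂ W)
    (D : Module.End ℂ W) (a b : Fin 2) (w : Fin 2 → W) :
    DV ξ D (sOp a b w) = sOp a b (DV ξ D w) - (sOp a 0 (pw (ξ 0 b) w) - pw (ξ a 0) (sOp 0 b w))
      - (sOp a 1 (pw (ξ 1 b) w) - pw (ξ a 1) (sOp 1 b w)) := by
  ext k
  rcases fin2 a with rfl | rfl <;> rcases fin2 b with rfl | rfl <;>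
    rcases fin2 k with rfl | rfl <;> simp [DV_apply, sOp_apply] <;> abel

theorem decomp {G G' : GM} {N : TRep} {ι : N.M →ₗ[ℂ] G.W} (h : IsCE G N ι) {n : ℕ}
    (hN : N.IsType n) {ι' : N.down.M →ₗ[ℂ] G'.W} (h' : IsCE G' N.down ι') :
    (∀ m, (G'.Inf 0).PD (m + 1) → (G'.neg.Inf 1).PD (m + 1) → (G.F.Inf 0).PD (m + 1)) ∧
    (∀ m, (G.F.Inf 0).PD m → (G'.Inf 0).PD m) := by
  have ht := h.tens
  have hn : ((n : ℂ) + 1) ≠ 0 := by exact_mod_cast Nat.succ_ne_zero n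
  -- the contraction
  obtain ⟨Θ, hΘ1, hΘ2⟩ := ht.lift _ (eta G.ξ) G.rel.xx.eta
    (LinearMap.inl ℂ _ _ ∘ₗ IsCE.pmap ι)
  have hΘ : ∀ w, (Θ w).1 = w :=
    ht.ext (fun a b => pw (G.ξ a b)) (LinearMap.fst ℂ _ _ ∘ₗ Θ) LinearMap.id
      (fun a b w => by simp [hΘ1]) (fun a b w => rfl) (fun m => by simp [hΘ2])
  let κ : Module.End ℂ (Fin 2 → G.W) := LinearMap.snd ℂ _ _ ∘ₗ Θ
  have hκX : ∀ a b w, κ (pw (G.ξ a b) w) = sOp a b w - pw (G.ξ a b) (κ w) := fun a b w => by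
    have := congrArg Prod.snd (hΘ1 a b w)
    simpa [hΘ, κ] using this
  have hκι : ∀ m, κ (IsCE.pmap ι m) = 0 := fun m => by
    have := congrArg Prod.snd (hΘ2 m)
    simpa [κ] using this
  have hκmem : ∀ z w, w ∈ G.tens.fam z → κ w ∈ G.tens.fam (z - 1) :=
    ht.map_mem κ (fun z => G.tens.fam (z - 1)) (fun m => by rw [hκι]; exact Submodule.zero_mem _)
      (fun a b z w hw hw' => by
        change κ (pw (G.ξ a b) w) ∈ _
        rw [hκX]
        exact Submodule.sub_mem _ (G.tens.mem_congr (by ring) (GM.sOp_mem a b hw))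
          (G.tens.mem_congr (by ring) (G.tens.ξ_mem a b _ _ hw')))
  clear_value κ
  clear hΘ hΘ1 hΘ2 Θ
  have hdx : ∀ a b w, DV G.ξ G.D (pw (G.ξ a b) w) = pw (G.ξ a 0) (pw (G.ξ 0 b) w) +
      pw (G.ξ a 1) (pw (G.ξ 1 b) w) - pw (G.ξ a b) (DV G.ξ G.D w) := G.rel.tens.dx
  have hdd : ∀ w, DV G.ξ G.D (DV G.ξ G.D w) = 0 := G.rel.tens.dd
  have hdι : ∀ m, DV G.ξ G.D (IsCE.pmap ι m) = pw (G.ξ 0 0) (IsCE.pmap ι (N.tT 0 0 m)) +
      pw (G.ξ 0 1) (IsCE.pmap ι (N.tT 0 1 m)) + pw (G.ξ 1 0) (IsCE.pmap ι (N.tT 1 0 m)) +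
      pw (G.ξ 1 1) (IsCE.pmap ι (N.tT 1 1 m)) := ht.D_ι
  -- the projector
  let π : Module.End ℂ (Fin 2 → G.W) := ((n : ℂ) + 1)⁻¹ • (κ ∘ₗ DV G.ξ G.D + DV G.ξ G.D ∘ₗ κ)
  have hπ : ∀ w, κ (DV G.ξ G.D w) = ((n : ℂ) + 1) • π w - DV G.ξ G.D (κ w) := fun w => by
    simp [π, smul_smul, hn]
  have hπX : ∀ a b w, π (pw (G.ξ a b) w) = pw (G.ξ a b) (π w) := fun a b w => by
    simp only [π, LinearMap.smul_apply, LinearMap.add_apply, LinearMap.comp_apply, map_smul, hdx,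
      hκX, map_add, map_sub, DV_sOp]
    congr 1
    abel
  have hπι : ∀ m, π (IsCE.pmap ι m) = IsCE.pmap ι (((n : ℂ) + 1)⁻¹ • N.y m) := fun m => by
    simp only [π, LinearMap.smul_apply, LinearMap.add_apply, LinearMap.comp_apply, map_smul, hdι,
      hκX, map_add, hκι, map_zero]
    congr 1
    ext k
    rcases fin2 k with rfl | rfl <;> simp [sOp_apply, TRep.tT_apply, TRep.y_apply] <;> abel
  have hπD : ∀ w, π (DV G.ξ G.D w) = DV G.ξ G.D (π w) := fun w => by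
    simp [π, hdd]
  have hπmem : ∀ z w, w ∈ G.tens.fam z → π w ∈ G.tens.fam z := fun z w hw =>
    Submodule.smul_mem _ _ (Submodule.add_mem _
      (G.tens.mem_congr (by ring) (hκmem _ _ (G.tens.D_mem _ _ hw)))
      (G.tens.mem_congr (by ring) (G.tens.D_mem _ _ (hκmem _ _ hw))))
  have hππ : ∀ w, π (π w) = π w :=
    ht.ext (fun a b => pw (G.ξ a b)) (π ∘ₗ π) π (fun a b w => by simp [hπX]) hπX
      (fun m => by
        simp only [LinearMap.comp_apply, hπι, map_smul, hN.y_y, smul_smul, inv_mul_cancel₀ hn,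
          mul_one])
  clear_value π
  -- inclusion and projection
  obtain ⟨I, hI1, hI2⟩ := h'.lift _ (fun a b => pw (G.ξ a b)) G.rel.xx.pw
    (IsCE.pmap ι ∘ₗ (LinearMap.ker N.y).subtype)
  let p : (Fin 2 → N.M) →ₗ[ℂ] N.down.M :=
    LinearMap.codRestrict (LinearMap.ker N.y) (LinearMap.id - ((n : ℂ) + 1)⁻¹ • N.y)
      (fun m => by simp [hN.y_y, smul_smul, hn])
  have hp : ∀ m, (p m).1 = m - ((n : ℂ) + 1)⁻¹ • N.y m := fun m => rfl
  have hpT : ∀ i j m, p (N.tT i j m) = N.down.T i j (p m) := fun i j m => Subtype.ext (by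
    simp [hp, N.y_comm])
  obtain ⟨P, hP1, hP2⟩ := ht.lift _ G'.ξ G'.rel.xx (ι' ∘ₗ p)
  simp only [LinearMap.comp_apply, Submodule.subtype_apply] at hI2 hP2
  replace hP1 : ∀ a b w, P (pw (G.ξ a b) w) = G'.ξ a b (P w) := hP1
  have hID : ∀ w, I (G'.D w) = DV G.ξ G.D (I w) :=
    h'.D_comm (G' := G.tens) I hI1 (fun m => by
      change _ = DV G.ξ G.D _
      simp [h'.D_ι, hI1, hI2, hdι])
  have hPD : ∀ w, P (DV G.ξ G.D w) = G'.D (P w) :=
    ht.D_comm (G' := G') P hP1 (fun m => by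
      change P (DV G.ξ G.D _) = _
      simp [h'.D_ι, hP1, hP2, hdι, hpT])
  have hImem : ∀ z w, w ∈ G'.fam z → I w ∈ G.tens.fam z :=
    h'.map_mem I G.tens.fam (fun m => by rw [hI2]; exact ht.ι_mem _)
      (fun a b z w _ hw => by rw [hI1]; exact G.tens.ξ_mem a b _ _ hw)
  have hPmem : ∀ z w, w ∈ G.tens.fam z → P w ∈ G'.fam z :=
    ht.map_mem P G'.fam (fun m => by rw [hP2]; exact h'.ι_mem _)
      (fun a b z w _ hw => by
        change P (pw (G.ξ a b) w) ∈ _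
        rw [hP1]; exact G'.ξ_mem a b _ _ hw)
  have hPI : ∀ w, P (I w) = w :=
    h'.ext G'.ξ (P ∘ₗ I) LinearMap.id (fun a b w => by simp [hI1, hP1]) (fun a b w => rfl)
      (fun m => by
        have : p m.1 = m := Subtype.ext (by
          have hm : N.y m.1 = 0 := m.2
          simp [hp, hm])
        simp [hI2, hP2, this])
  have hπI : ∀ w, π (I w) = 0 :=
    h'.eq_zero (fun a b => pw (G.ξ a b)) (π ∘ₗ I) (fun a b w => by simp [hI1, hπX])
      (fun m => by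
        have hm : N.y m.1 = 0 := m.2
        simp [hI2, hπι, hm])
  have hPπ : ∀ w, P (π w) = 0 :=
    ht.eq_zero G'.ξ (P ∘ₗ π) (fun a b w => by simp [hπX, hP1])
      (fun m => by
        have : p (N.y m) = 0 := Subtype.ext (by simp [hp, hN.y_y, smul_smul, hn])
        simp [hπι, hP2, this])
  have hIP : ∀ w, I (P w) = w - π w :=
    ht.ext (fun a b => pw (G.ξ a b)) (I ∘ₗ P) (LinearMap.id - π)
      (fun a b w => by simp [hI1, hP1]) (fun a b w => by simp [hπX])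
      (fun m => by simp [hP2, hI2, hp, hπι])
  -- the six maps
  have a0 : IsGHom G' G.F 0 0 (I.prod (κ ∘ₗ I)) :=
    ⟨fun a b w => Prod.ext (by simp [hI1]) (by simp [hI1, hκX]),
     fun w => Prod.ext (by simp [hID]) (by simp [hID, hπ, hπI]),
     fun z w hw => ⟨hImem _ _ hw, hκmem _ _ (hImem _ _ hw)⟩⟩
  have b0 : IsGHom G.F G' 0 0 (P ∘ₗ LinearMap.fst ℂ _ _) :=
    ⟨fun a b w => by simp [hP1], fun w => by simp [hPD], fun z w hw => hPmem _ _ hw.1⟩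
  have a1 : IsGHom G'.neg G.F 1 0 (LinearMap.inr ℂ _ _ ∘ₗ I) :=
    ⟨fun a b w => Prod.ext (by simp) (by simp [hI1]),
     fun w => Prod.ext (by simp) (by simp [hID]),
     fun z w hw => ⟨Submodule.zero_mem _, G.tens.mem_congr (by ring) (hImem _ _ hw)⟩⟩
  have b1 : IsGHom G.F G'.neg 0 1 (P ∘ₗ (LinearMap.snd ℂ _ _ - κ ∘ₗ LinearMap.fst ℂ _ _)) :=
    ⟨fun a b w => by simp [hP1, hκX],
     fun w => by simp [hPD, hπ, hPπ]; abel,
     fun z w hw => hPmem _ _ (G.tens.mem_congr (by ring)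
       (Submodule.sub_mem _ hw.2 (hκmem _ _ hw.1)))⟩
  have a2 : IsGHom (G.tens.cone (-((n : ℂ) + 1))) G.F 0 0
      ((π ∘ₗ LinearMap.fst ℂ _ _).prod (π ∘ₗ LinearMap.snd ℂ _ _ + κ ∘ₗ π ∘ₗ LinearMap.fst ℂ _ _)) :=
    ⟨fun a b w => Prod.ext (by simp [hπX]) (by simp [hπX, hκX]; abel),
     fun w => Prod.ext (by simp [hπD]) (by
       change π (-((n : ℂ) + 1) • w.1 - DV G.ξ G.D w.2) + κ (π (DV G.ξ G.D w.1)) =
         -DV G.ξ G.D (π w.2 + κ (π w.1))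
       simp only [map_sub, map_smul, hπD, hπ, hππ, map_add]
       module),
     fun z w hw => ⟨hπmem _ _ hw.1,
       Submodule.add_mem _ (hπmem _ _ hw.2) (hκmem _ _ (hπmem _ _ hw.1))⟩⟩
  have b2 : IsGHom G.F (G.tens.cone (-((n : ℂ) + 1))) 0 0
      ((π ∘ₗ LinearMap.fst ℂ _ _).prod
        (π ∘ₗ (LinearMap.snd ℂ _ _ - κ ∘ₗ LinearMap.fst ℂ _ _))) :=
    ⟨fun a b w => Prod.ext (by simp [hπX]) (by simp [hπX, hκX]),
     fun w => Prod.ext (by simp [hπD]) (by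
       change π (-DV G.ξ G.D w.2 - κ (DV G.ξ G.D w.1)) =
         -((n : ℂ) + 1) • π w.1 - DV G.ξ G.D (π (w.2 - κ w.1))
       simp only [map_sub, map_smul, hπD, hπ, hππ, map_neg]
       module),
     fun z w hw => ⟨hπmem _ _ hw.1, hπmem _ _ (Submodule.sub_mem _ hw.2 (hκmem _ _ hw.1))⟩⟩
  refine ⟨fun m h1 h2 => ?_, fun m h1 => ?_⟩
  · have h3 : ((G.tens.cone (-((n : ℂ) + 1))).Inf 0).PD (m + 1) :=
      (ht.pd_cone_zero (neg_ne_zero.mpr hn)).mono (by omega)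
    refine Rep.PD.of_sum3 h1 h2 h3 a0.isHom a1.isHom a2.isHom b0.isHom b1.isHom b2.isHom
      fun v => GM.Inf_ext fun l => ?_
    refine Prod.ext ?_ ?_
    · simp [hIP, hππ]
    · simp [hIP, hππ]; abel
  · exact h1.of_retract a0.isHom b0.isHom fun v => GM.Inf_ext fun l => by simp [hPI]

end Crest.Agent.R178
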