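import Crest.Agent.R178.Rep
import Crest.Agent.R178.CE

/-!
Induced representations.
-/

set_option autoImplicit false

namespace Crest.Agent.R178

open Finset

namespace Rep

variable (R : Rep)

lemma E_big (i : ℕ) (hi : 6 ≤ i) (v : R.V) : R.E i v = 0 := by simp [R.rels.e_big i hi]
lemma E_sum (v : R.V) : ∑ i ∈ range 6, R.E i v = v := by
  simpa [LinearMap.sum_apply] using LinearMap.congr_fun R.rels.e_sum v
lemma E_E (i j : ℕ) (v : R.V) : R.E i (R.E j v) = if i = j then R.E i v else 0 := by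
  have := LinearMap.congr_fun (R.rels.e_mul i j) v
  split_ifs at this ⊢ <;> simpa using this
lemma X_E (a b : Fin 2) (i : ℕ) (v : R.V) : R.X a b (R.E i v) = R.E (i + 1) (R.X a b v) :=
  LinearMap.congr_fun (R.rels.x_e a b i) v
lemma D_E (i : ℕ) (v : R.V) : R.D (R.E i v) = R.E (i + 1) (R.D v) :=
  LinearMap.congr_fun (R.rels.d_e i) v
lemma E_P (k : Fin 2) (i : ℕ) (v : R.V) : R.E i (R.P k v) = R.P k (R.E (i + 1) v) :=
  LinearMap.congr_fun (R.rels.e_p k i) v
lemma E_Q (k : Fin 2) (i : ℕ) (v : R.V) : R.E i (R.Q k v) = R.Q k (R.E i v) :=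
  LinearMap.congr_fun (R.rels.e_r k i) v
lemma P_E0 (k : Fin 2) (v : R.V) : R.P k (R.E 0 v) = 0 := LinearMap.congr_fun (R.rels.p_e0 k) v
lemma Q_E0 (k : Fin 2) (v : R.V) : R.Q k (R.E 0 v) = 0 := LinearMap.congr_fun (R.rels.r_e0 k) v
lemma grel : GRel R.X R.D where
  xx a b a' b' v := eq_neg_of_add_eq_zero_left (LinearMap.congr_fun (R.rels.x_x a b a' b') v)
  dx a b v := eq_sub_of_add_eq (LinearMap.congr_fun (R.rels.d_x a b) v)
  dd v := LinearMap.congr_fun R.rels.d_d v
lemma X_P (a b k : Fin 2) (v : R.V) :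
    R.X a b (R.P k v) = R.P k (R.X a b v) + if b = k then R.Q a v else 0 := by
  have := LinearMap.congr_fun (R.rels.x_p a b k) v
  split_ifs at this ⊢ <;> simpa using this
lemma X_Q (a b k : Fin 2) (v : R.V) : R.X a b (R.Q k v) = -R.Q k (R.X a b v) :=
  LinearMap.congr_fun (R.rels.x_r a b k) v
lemma D_P (k : Fin 2) (v : R.V) : R.D (R.P k v) = R.P k (R.D v) +
    (R.P 0 (R.X k 0 v) + R.P 1 (R.X k 1 v)) - (R.P k (R.X 0 0 v) + R.P k (R.X 1 1 v)) := by
  simpa using LinearMap.congr_fun (R.rels.d_p k) v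
lemma D_Q (k : Fin 2) (v : R.V) : R.D (R.Q k v) = -(R.Q k (R.D v) +
    (R.Q 0 (R.X k 0 v) + R.Q 1 (R.X k 1 v)) - (R.Q k (R.X 0 0 v) + R.Q k (R.X 1 1 v))) := by
  have := LinearMap.congr_fun (R.rels.d_r k) v
  simp only [Module.End.mul_apply, LinearMap.neg_apply, LinearMap.sub_apply, LinearMap.add_apply,
    map_add] at this
  exact this
lemma P_P (k l : Fin 2) (v : R.V) : R.P k (R.P l v) = 0 := LinearMap.congr_fun (R.rels.p_p k l) v
lemma P_Q (k l : Fin 2) (v : R.V) : R.P k (R.Q l v) = 0 := LinearMap.congr_fun (R.rels.p_r k l) v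
lemma Q_P (k l : Fin 2) (v : R.V) : R.Q k (R.P l v) = 0 := LinearMap.congr_fun (R.rels.r_p k l) v
lemma Q_Q (k l : Fin 2) (v : R.V) : R.Q k (R.Q l v) = 0 := LinearMap.congr_fun (R.rels.r_r k l) v

/-- the space of the functor `Gr` -/
abbrev GV : Type := (Fin 2 → R.V) × (Fin 2 → R.V)

noncomputable def grE (i : ℕ) : Module.End ℂ R.GV := (pw (R.E (i + 1))).prodMap (pw (R.E i))

@[simp] lemma grE_fst (i : ℕ) (u : R.GV) (k : Fin 2) : (R.grE i u).1 k = R.E (i + 1) (u.1 k) := rfl
@[simp] lemma grE_snd (i : ℕ) (u : R.GV) (k : Fin 2) : (R.grE i u).2 k = R.E i (u.2 k) := rfl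

section
variable (h0 : ∀ v, R.E 0 v = 0)
include h0

lemma E_sum' (v : R.V) : ∑ i ∈ range 6, R.E (i + 1) v = v := by
  have := R.E_sum v
  simp only [sum_range_succ, range_zero, sum_empty, zero_add, Nat.reduceAdd, h0,
    R.E_big 6 le_rfl, add_zero] at this ⊢
  exact this

lemma gr_rels : Rels R.grE (eta R.X) (DF R.X R.D) (fun _ => 0) (fun _ => 0) where
  e_big i hi := by
    refine LinearMap.ext fun u => ?_
    ext k <;> simp [R.E_big i hi, R.E_big (i + 1) (by omega)]
  e_sum := by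
    refine LinearMap.ext fun u => ?_
    ext k
    · simp [LinearMap.sum_apply, Prod.fst_sum, Finset.sum_apply, R.E_sum' h0]
    · simp [LinearMap.sum_apply, Prod.snd_sum, Finset.sum_apply, R.E_sum]
  e_mul i j := by
    refine LinearMap.ext fun u => ?_
    by_cases h : i = j
    · ext k <;> simp [h, R.E_E]
    · ext k <;> simp [h, R.E_E]
  x_e a b i := by
    refine LinearMap.ext fun u => ?_
    ext k
    · simp [R.X_E]
    · by_cases h : k = a <;> simp [R.X_E, sOp_apply, h]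
  d_e i := by
    refine LinearMap.ext fun u => ?_
    ext k <;> simp [R.X_E, R.D_E, DV_apply]
  e_p := by simp
  e_r := by simp
  p_e0 := by simp
  r_e0 := by simp
  x_x a b a' b' := by
    refine LinearMap.ext fun u => ?_
    simp [R.grel.eta.xx a b a' b']
  d_x a b := by
    refine LinearMap.ext fun u => ?_
    simp [R.grel.eta.dx]
  d_d := by
    refine LinearMap.ext fun u => ?_
    simp [R.grel.eta.dd]
  x_p := by simp
  x_r a b k := by refine LinearMap.ext fun u => ?_; simp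
  d_p := by simp
  d_r k := by refine LinearMap.ext fun u => ?_; simp
  p_p := by simp
  p_r := by simp
  r_p := by simp
  r_r := by simp

end

/-- `P` operators on the induced module -/
def indP (k : Fin 2) : Module.End ℂ (R.V × R.GV) where
  toFun u := (0, (Pi.single k u.1, 0))
  map_add' u v := by simp [Pi.single_add]
  map_smul' c u := by simp [Pi.single_smul]

def indQ (k : Fin 2) : Module.End ℂ (R.V × R.GV) where
  toFun u := (0, (0, Pi.single k u.1))
  map_add' u v := by simp [Pi.single_add]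
  map_smul' c u := by simp [Pi.single_smul]

lemma indP_apply (k : Fin 2) (u : R.V × R.GV) : R.indP k u = (0, (Pi.single k u.1, 0)) := rfl
lemma indQ_apply (k : Fin 2) (u : R.V × R.GV) : R.indQ k u = (0, (0, Pi.single k u.1)) := rfl

lemma ind_rels (h0 : ∀ v, R.E 0 v = 0) : Rels (fun i => (R.E i).prodMap (R.grE i))
    (fun a b => (R.X a b).prodMap (eta R.X a b)) (R.D.prodMap (DF R.X R.D)) R.indP R.indQ where
  e_big i hi := by
    rw [R.rels.e_big i hi, (R.gr_rels h0).e_big i hi, LinearMap.prodMap_zero]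
  e_sum := by
    refine LinearMap.ext fun u => ?_
    have := LinearMap.congr_fun (R.gr_rels h0).e_sum u.2
    refine Prod.ext ?_ ?_
    · simp [LinearMap.sum_apply, Prod.fst_sum, R.E_sum]
    · simpa [LinearMap.sum_apply, Prod.snd_sum] using this
  e_mul i j := by
    rw [LinearMap.prodMap_mul, R.rels.e_mul, (R.gr_rels h0).e_mul]
    split_ifs
    · rfl
    · exact LinearMap.prodMap_zero
  x_e a b i := by
    rw [LinearMap.prodMap_mul, LinearMap.prodMap_mul, R.rels.x_e, (R.gr_rels h0).x_e]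
  d_e i := by
    rw [LinearMap.prodMap_mul, LinearMap.prodMap_mul, R.rels.d_e, (R.gr_rels h0).d_e]
  e_p k i := by
    refine LinearMap.ext fun u => ?_
    ext l <;> rcases fin2 k with rfl | rfl <;> (try rcases fin2 l with rfl | rfl) <;>
      simp [indP_apply]
  e_r k i := by
    refine LinearMap.ext fun u => ?_
    ext l <;> rcases fin2 k with rfl | rfl <;> (try rcases fin2 l with rfl | rfl) <;>
      simp [indQ_apply]
  p_e0 k := by
    refine LinearMap.ext fun u => ?_
    simp [indP_apply, h0]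
  r_e0 k := by
    refine LinearMap.ext fun u => ?_
    simp [indQ_apply, h0]
  x_x a b a' b' := by
    rw [LinearMap.prodMap_mul, LinearMap.prodMap_mul, ← LinearMap.prodMap_add, R.rels.x_x,
      (R.gr_rels h0).x_x, LinearMap.prodMap_zero]
  d_x a b := by
    simp only [LinearMap.prodMap_mul, ← LinearMap.prodMap_add, R.rels.d_x, (R.gr_rels h0).d_x]
  d_d := by
    rw [LinearMap.prodMap_mul, R.rels.d_d, (R.gr_rels h0).d_d, LinearMap.prodMap_zero]
  x_p a b k := by
    refine LinearMap.ext fun u => ?_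
    ext l <;> rcases fin2 k with rfl | rfl <;> (try rcases fin2 l with rfl | rfl) <;>
      rcases fin2 a with rfl | rfl <;> rcases fin2 b with rfl | rfl <;>
      simp [indP_apply, indQ_apply, sOp_apply]
  x_r a b k := by
    refine LinearMap.ext fun u => ?_
    ext l <;> rcases fin2 k with rfl | rfl <;> (try rcases fin2 l with rfl | rfl) <;>
      simp [indQ_apply]
  d_p k := by
    refine LinearMap.ext fun u => ?_
    ext l <;> rcases fin2 k with rfl | rfl <;> (try rcases fin2 l with rfl | rfl) <;>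
      simp [indP_apply, DV_apply]
  d_r k := by
    refine LinearMap.ext fun u => ?_
    ext l <;> rcases fin2 k with rfl | rfl <;> (try rcases fin2 l with rfl | rfl) <;>
      simp [indQ_apply, DV_apply]
  p_p k l := by refine LinearMap.ext fun u => ?_; simp [indP_apply]
  p_r k l := by refine LinearMap.ext fun u => ?_; simp [indP_apply, indQ_apply]
  r_p k l := by refine LinearMap.ext fun u => ?_; simp [indP_apply, indQ_apply]
  r_r k l := by refine LinearMap.ext fun u => ?_; simp [indQ_apply]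

/-- the kernel part of the induced module -/
noncomputable def Gr (h0 : ∀ v, R.E 0 v = 0) : Rep := Rep.ofOps R.GV (R.gr_rels h0)

/-- the induced module -/
noncomputable def Ind (h0 : ∀ v, R.E 0 v = 0) : Rep := Rep.ofOps (R.V × R.GV) (R.ind_rels h0)

variable (h0 : ∀ v, R.E 0 v = 0)

def grVal : (R.Gr h0).V ≃ₗ[ℂ] R.GV := LinearEquiv.refl ℂ R.GV
def indVal : (R.Ind h0).V ≃ₗ[ℂ] R.V × R.GV := LinearEquiv.refl ℂ (R.V × R.GV)

@[simp] lemma grVal_E (i : ℕ) (u : (R.Gr h0).V) :
    R.grVal h0 ((R.Gr h0).E i u) = R.grE i (R.grVal h0 u) :=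
  LinearMap.congr_fun (Rep.ofOps_E R.GV (R.gr_rels h0) i) u
@[simp] lemma grVal_X (a b : Fin 2) (u : (R.Gr h0).V) :
    R.grVal h0 ((R.Gr h0).X a b u) = eta R.X a b (R.grVal h0 u) :=
  LinearMap.congr_fun (Rep.ofOps_X R.GV (R.gr_rels h0) a b) u
@[simp] lemma grVal_D (u : (R.Gr h0).V) :
    R.grVal h0 ((R.Gr h0).D u) = DF R.X R.D (R.grVal h0 u) :=
  LinearMap.congr_fun (Rep.ofOps_D R.GV (R.gr_rels h0)) u
@[simp] lemma Gr_P (k : Fin 2) (u : (R.Gr h0).V) : (R.Gr h0).P k u = 0 :=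
  LinearMap.congr_fun (Rep.ofOps_P R.GV (R.gr_rels h0) k) u
@[simp] lemma Gr_Q (k : Fin 2) (u : (R.Gr h0).V) : (R.Gr h0).Q k u = 0 :=
  LinearMap.congr_fun (Rep.ofOps_Q R.GV (R.gr_rels h0) k) u

@[simp] lemma indVal_E (i : ℕ) (u : (R.Ind h0).V) :
    R.indVal h0 ((R.Ind h0).E i u) = (R.E i (R.indVal h0 u).1, R.grE i (R.indVal h0 u).2) :=
  LinearMap.congr_fun (Rep.ofOps_E _ (R.ind_rels h0) i) u
@[simp] lemma indVal_X (a b : Fin 2) (u : (R.Ind h0).V) :
    R.indVal h0 ((R.Ind h0).X a b u) =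
      (R.X a b (R.indVal h0 u).1, eta R.X a b (R.indVal h0 u).2) :=
  LinearMap.congr_fun (Rep.ofOps_X _ (R.ind_rels h0) a b) u
@[simp] lemma indVal_D (u : (R.Ind h0).V) :
    R.indVal h0 ((R.Ind h0).D u) = (R.D (R.indVal h0 u).1, DF R.X R.D (R.indVal h0 u).2) :=
  LinearMap.congr_fun (Rep.ofOps_D _ (R.ind_rels h0)) u
@[simp] lemma indVal_P (k : Fin 2) (u : (R.Ind h0).V) :
    R.indVal h0 ((R.Ind h0).P k u) = (0, (Pi.single k (R.indVal h0 u).1, 0)) :=
  LinearMap.congr_fun (Rep.ofOps_P _ (R.ind_rels h0) k) u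
@[simp] lemma indVal_Q (k : Fin 2) (u : (R.Ind h0).V) :
    R.indVal h0 ((R.Ind h0).Q k u) = (0, (0, Pi.single k (R.indVal h0 u).1)) :=
  LinearMap.congr_fun (Rep.ofOps_Q _ (R.ind_rels h0) k) u

/-- inclusion of the kernel part -/
noncomputable def grIncl : (R.Gr h0).V →ₗ[ℂ] (R.Ind h0).V :=
  (R.indVal h0).symm.toLinearMap ∘ₗ LinearMap.inr ℂ R.V R.GV ∘ₗ (R.grVal h0).toLinearMap

/-- projection onto the base -/
noncomputable def indProj : (R.Ind h0).V →ₗ[ℂ] R.V :=
  LinearMap.fst ℂ R.V R.GV ∘ₗ (R.indVal h0).toLinearMap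

/-- inclusion of the base (only a `B`-map) -/
noncomputable def indIncl : R.V →ₗ[ℂ] (R.Ind h0).V :=
  (R.indVal h0).symm.toLinearMap ∘ₗ LinearMap.inl ℂ R.V R.GV

@[simp] lemma indVal_grIncl (u : (R.Gr h0).V) :
    R.indVal h0 (R.grIncl h0 u) = (0, R.grVal h0 u) := rfl
@[simp] lemma indProj_apply (u : (R.Ind h0).V) : R.indProj h0 u = (R.indVal h0 u).1 := rfl
@[simp] lemma indVal_indIncl (v : R.V) : R.indVal h0 (R.indIncl h0 v) = (v, 0) := rfl

lemma indIncl_bhom : IsBHom R (R.Ind h0) (R.indIncl h0) where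
  E i v := (R.indVal h0).injective (by simp)
  X a b v := (R.indVal h0).injective (by simp)
  D v := (R.indVal h0).injective (by simp)

lemma indProj_hom (hP : ∀ k v, R.P k v = 0) (hQ : ∀ k v, R.Q k v = 0) :
    IsHom (R.Ind h0) R (R.indProj h0) where
  E i v := by simp
  X a b v := by simp
  D v := by simp
  P k v := by simp [hP]
  Q k v := by simp [hQ]

lemma ind_ses (hP : ∀ k v, R.P k v = 0) (hQ : ∀ k v, R.Q k v = 0) :
    IsSES (R.Gr h0) (R.Ind h0) R (R.grIncl h0) (R.indProj h0) where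
  hf :=
    { E i v := (R.indVal h0).injective (by simp)
      X a b v := (R.indVal h0).injective (by simp)
      D v := (R.indVal h0).injective (by simp)
      P k v := (R.indVal h0).injective (by simp; rfl)
      Q k v := (R.indVal h0).injective (by simp; rfl) }
  hg := R.indProj_hom h0 hP hQ
  inj u v h := by
    have := congrArg (fun w => (R.indVal h0 w).2) h
    simpa using this
  surj v := ⟨R.indIncl h0 v, by simp⟩
  exact u := by
    constructor
    · intro h
      refine ⟨(R.grVal h0).symm (R.indVal h0 u).2, (R.indVal h0).injective ?_⟩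
      simp only [indProj_apply] at h
      simp [← h]
    · rintro ⟨v, rfl⟩; simp

lemma ind_decomp (u : (R.Ind h0).V) : u = R.indIncl h0 (R.indVal h0 u).1 +
    ((R.Ind h0).P 0 (R.indIncl h0 ((R.indVal h0 u).2.1 0)) +
      (R.Ind h0).P 1 (R.indIncl h0 ((R.indVal h0 u).2.1 1))) +
    ((R.Ind h0).Q 0 (R.indIncl h0 ((R.indVal h0 u).2.2 0)) +
      (R.Ind h0).Q 1 (R.indIncl h0 ((R.indVal h0 u).2.2 1))) := by
  refine (R.indVal h0).injective ?_
  ext k
  · simp
  · rcases fin2 k with rfl | rfl <;> simp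
  · rcases fin2 k with rfl | rfl <;> simp

/-- extension of a `B`-map to the induced module -/
noncomputable def indLift {Y : Rep} (f : R.V →ₗ[ℂ] Y.V) : (R.Ind h0).V →ₗ[ℂ] Y.V where
  toFun u := f (R.indVal h0 u).1 +
    (Y.P 0 (f ((R.indVal h0 u).2.1 0)) + Y.P 1 (f ((R.indVal h0 u).2.1 1))) +
    (Y.Q 0 (f ((R.indVal h0 u).2.2 0)) + Y.Q 1 (f ((R.indVal h0 u).2.2 1)))
  map_add' u v := by simp; abel
  map_smul' c u := by simp

lemma indLift_apply {Y : Rep} (f : R.V →ₗ[ℂ] Y.V) (u : (R.Ind h0).V) :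
    R.indLift h0 f u = f (R.indVal h0 u).1 +
    (Y.P 0 (f ((R.indVal h0 u).2.1 0)) + Y.P 1 (f ((R.indVal h0 u).2.1 1))) +
    (Y.Q 0 (f ((R.indVal h0 u).2.2 0)) + Y.Q 1 (f ((R.indVal h0 u).2.2 1))) := rfl

lemma indLift_incl {Y : Rep} (f : R.V →ₗ[ℂ] Y.V) (v : R.V) :
    R.indLift h0 f (R.indIncl h0 v) = f v := by simp [indLift_apply]

lemma indLift_hom {Y : Rep} {f : R.V →ₗ[ℂ] Y.V} (hf : IsBHom R Y f) :
    IsHom (R.Ind h0) Y (R.indLift h0 f) where
  E i u := by simp [indLift_apply, hf.E, Y.E_P, Y.E_Q]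
  X a b u := by
    rcases fin2 a with rfl | rfl <;> rcases fin2 b with rfl | rfl <;>
    simp [indLift_apply, hf.X, Y.X_P, Y.X_Q, sOp_apply] <;> abel
  D u := by
    simp [indLift_apply, hf.X, hf.D, Y.D_P, Y.D_Q, DV_apply]; abel
  P k u := by
    rcases fin2 k with rfl | rfl <;> simp [indLift_apply, Y.P_P, Y.P_Q]
  Q k u := by
    rcases fin2 k with rfl | rfl <;> simp [indLift_apply, Y.Q_P, Y.Q_Q]

lemma ind_hom_ext {Y : Rep} {f g : (R.Ind h0).V →ₗ[ℂ] Y.V} (hf : IsHom (R.Ind h0) Y f)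
    (hg : IsHom (R.Ind h0) Y g) (h : ∀ v, f (R.indIncl h0 v) = g (R.indIncl h0 v))
    (u : (R.Ind h0).V) : f u = g u := by
  rw [R.ind_decomp h0 u]
  simp only [map_add, hf.P, hf.Q, hg.P, hg.Q, h]

end Rep

section functor

variable {R S T : Rep} (hR : ∀ v, R.E 0 v = 0) (hS : ∀ v, S.E 0 v = 0) (hT : ∀ v, T.E 0 v = 0)

/-- functoriality of induction -/
noncomputable def indMap (f : R.V →ₗ[ℂ] S.V) : (R.Ind hR).V →ₗ[ℂ] (S.Ind hS).V :=
  (S.indVal hS).symm.toLinearMap ∘ₗ f.prodMap ((IsCE.pmap f).prodMap (IsCE.pmap f)) ∘ₗ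
    (R.indVal hR).toLinearMap

@[simp] lemma indVal_indMap (f : R.V →ₗ[ℂ] S.V) (u : (R.Ind hR).V) :
    S.indVal hS (indMap hR hS f u) = (f (R.indVal hR u).1,
      (IsCE.pmap f (R.indVal hR u).2.1, IsCE.pmap f (R.indVal hR u).2.2)) := rfl

lemma indMap_hom {f : R.V →ₗ[ℂ] S.V} (hf : IsBHom R S f) :
    IsHom (R.Ind hR) (S.Ind hS) (indMap hR hS f) where
  E i u := (S.indVal hS).injective (by ext k <;> simp [hf.E])
  X a b u := (S.indVal hS).injective (by
    ext k
    · simp [hf.X]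
    · simp [hf.X]
    · by_cases h : k = a <;> simp [hf.X, sOp_apply, h])
  D u := (S.indVal hS).injective (by ext k <;> simp [hf.X, hf.D, DV_apply])
  P k u := (S.indVal hS).injective (by simp [IsCE.pmap_single])
  Q k u := (S.indVal hS).injective (by simp [IsCE.pmap_single])

lemma IsSES.ind {f : R.V →ₗ[ℂ] S.V} {g : S.V →ₗ[ℂ] T.V} (h : IsSES R S T f g) :
    IsSES (R.Ind hR) (S.Ind hS) (T.Ind hT) (indMap hR hS f) (indMap hS hT g) where
  hf := indMap_hom hR hS h.hf.toIsBHom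
  hg := indMap_hom hS hT h.hg.toIsBHom
  inj u v huv := by
    have := congrArg (S.indVal hS) huv
    simp only [indVal_indMap, Prod.mk.injEq] at this
    obtain ⟨h1, h2, h3⟩ := this
    refine (R.indVal hR).injective ?_
    ext k
    · exact h.inj h1
    · exact h.inj (congrFun h2 k)
    · exact h.inj (congrFun h3 k)
  surj u := by
    choose s hs using h.surj
    refine ⟨(S.indVal hS).symm (s (T.indVal hT u).1,
      (fun k => s ((T.indVal hT u).2.1 k), fun k => s ((T.indVal hT u).2.2 k))), ?_⟩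
    refine (T.indVal hT).injective ?_
    ext k <;> simp [hs]
  exact u := by
    constructor
    · intro hu
      have := congrArg (T.indVal hT) hu
      simp only [indVal_indMap, map_zero, Prod.mk_eq_zero] at this
      obtain ⟨h1, h2, h3⟩ := this
      obtain ⟨v1, hv1⟩ := (h.exact _).mp h1
      choose v2 hv2 using fun k => (h.exact _).mp (congrFun h2 k)
      choose v3 hv3 using fun k => (h.exact _).mp (congrFun h3 k)
      refine ⟨(R.indVal hR).symm (v1, (v2, v3)), (S.indVal hS).injective ?_⟩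
      ext k <;> simp [hv1, hv2, hv3]
    · rintro ⟨v, rfl⟩
      refine (T.indVal hT).injective ?_
      ext k <;> simp [h.exact.apply_apply_eq_zero]

end functor

end Crest.Agent.R178
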