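import Crest.Agent.R178.Rep
import Crest.Agent.R178.CE

/-!
Truncated graded modules attached to a family, as representations of `A`.
-/

set_option autoImplicit false

namespace Crest.Agent.R178

open Finset

section ops
variable {W : Type} [AddCommGroup W] [Module ℂ W]

/-- truncated raising operator on sequences -/
def upF (T : Module.End ℂ W) : Module.End ℂ (ℕ → W) where
  toFun f l := Nat.casesOn l 0 fun l => if l < 5 then T (f l) else 0
  map_add' f g := by
    ext l; rcases l with _ | l
    · simp
    · by_cases h : l < 5 <;> simp [h]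
  map_smul' c f := by
    ext l; rcases l with _ | l
    · simp
    · by_cases h : l < 5 <;> simp [h]

@[simp] lemma upF_zero (T : Module.End ℂ W) (f : ℕ → W) : upF T f 0 = 0 := rfl
lemma upF_succ (T : Module.End ℂ W) (f : ℕ → W) (l : ℕ) :
    upF T f (l + 1) = if l < 5 then T (f l) else 0 := rfl

/-- coordinate projection -/
def prF (i : ℕ) : Module.End ℂ (ℕ → W) where
  toFun f l := if l = i then f l else 0
  map_add' f g := by ext l; by_cases h : l = i <;> simp [h]
  map_smul' c f := by ext l; by_cases h : l = i <;> simp [h]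

lemma prF_apply (i : ℕ) (f : ℕ → W) (l : ℕ) : prF i f l = if l = i then f l else 0 := rfl

end ops

namespace GM

variable (G : GM) (j : ℤ)

/-- sequences supported in degrees `0..5` with values in the shifted family -/
def sub : Submodule ℂ (ℕ → G.W) where
  carrier := {f | ∀ l : ℕ, f l ∈ G.fam (l - j) ∧ (6 ≤ l → f l = 0)}
  add_mem' hf hg l := ⟨Submodule.add_mem _ (hf l).1 (hg l).1,
    fun h => by simp [(hf l).2 h, (hg l).2 h]⟩
  zero_mem' l := ⟨Submodule.zero_mem _, fun _ => rfl⟩
  smul_mem' c f hf l := ⟨Submodule.smul_mem _ _ (hf l).1, fun h => by simp [(hf l).2 h]⟩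

variable {G j} in
lemma sub_mem (f : G.sub j) (l : ℕ) : f.1 l ∈ G.fam (l - j) := (f.2 l).1
variable {G j} in
lemma sub_big (f : G.sub j) (l : ℕ) (h : 6 ≤ l) : f.1 l = 0 := (f.2 l).2 h

def up (T : Module.End ℂ G.W) (hT : ∀ z w, w ∈ G.fam z → T w ∈ G.fam (z + 1)) :
    Module.End ℂ (G.sub j) :=
  (upF T).restrict (p := G.sub j) (q := G.sub j) fun f hf l => by
    rcases l with _ | l
    · simp
    · rw [upF_succ]
      split_ifs with h
      · exact ⟨G.mem_congr (by push_cast; ring) (hT _ _ (hf l).1), fun h' => by omega⟩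
      · simp

def pr (i : ℕ) : Module.End ℂ (G.sub j) :=
  (prF i).restrict (p := G.sub j) (q := G.sub j) fun f hf l => by
    rw [prF_apply]
    split_ifs with h
    · exact hf l
    · simp

@[simp] lemma up_zero (T : Module.End ℂ G.W) (hT : ∀ z w, w ∈ G.fam z → T w ∈ G.fam (z + 1))
    (f : G.sub j) : (G.up j T hT f).1 0 = 0 := rfl
lemma up_succ (T : Module.End ℂ G.W) (hT : ∀ z w, w ∈ G.fam z → T w ∈ G.fam (z + 1))
    (f : G.sub j) (l : ℕ) : (G.up j T hT f).1 (l + 1) = if l < 5 then T (f.1 l) else 0 := rfl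
lemma pr_apply (i : ℕ) (f : G.sub j) (l : ℕ) :
    (G.pr j i f).1 l = if l = i then f.1 l else 0 := rfl

lemma inf_rels : Rels (G.pr j) (fun a b => G.up j (G.ξ a b) (G.ξ_mem a b)) (G.up j G.D G.D_mem)
    (fun _ => 0) (fun _ => 0) where
  e_big i hi := by
    ext f l
    simp only [pr_apply, LinearMap.zero_apply, ZeroMemClass.coe_zero, Pi.zero_apply]
    split_ifs with h
    · exact sub_big f l (by omega)
    · rfl
  e_sum := by
    ext f l
    simp only [LinearMap.sum_apply, AddSubmonoidClass.coe_finsetSum, Finset.sum_apply, pr_apply,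
      sum_ite_eq, mem_range, Module.End.one_apply]
    split_ifs with h
    · rfl
    · exact (sub_big f l (by omega)).symm
  e_mul i k := by
    ext f l
    by_cases h : i = k
    · subst h
      by_cases h' : l = i <;> simp [pr_apply, h']
    · by_cases h' : l = i
      · subst h'; simp [pr_apply, h]
      · simp [pr_apply, h, h']
  x_e a b i := by
    ext f l
    rcases l with _ | l
    · simp [pr_apply]
    · simp only [Module.End.mul_apply, up_succ, pr_apply, Nat.add_right_cancel_iff]
      split_ifs <;> simp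
  d_e i := by
    ext f l
    rcases l with _ | l
    · simp [pr_apply]
    · simp only [Module.End.mul_apply, up_succ, pr_apply, Nat.add_right_cancel_iff]
      split_ifs <;> simp
  e_p := by simp
  e_r := by simp
  p_e0 := by simp
  r_e0 := by simp
  x_x a b a' b' := by
    ext f l
    rcases l with _ | _ | l
    · simp
    · simp [up_succ]
    · by_cases h : l + 1 < 5
      · have h' : l < 5 := by omega
        simp [up_succ, h, h', G.rel.xx a b a' b']
      · simp [up_succ, h]
  d_x a b := by
    ext f l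
    rcases l with _ | _ | l
    · simp
    · simp [up_succ]
    · by_cases h : l + 1 < 5
      · have h' : l < 5 := by omega
        simp [up_succ, h, h', G.rel.dx]
      · simp [up_succ, h]
  d_d := by
    ext f l
    rcases l with _ | _ | l
    · simp
    · simp [up_succ]
    · by_cases h : l + 1 < 5
      · have h' : l < 5 := by omega
        simp [up_succ, h, h', G.rel.dd]
      · simp [up_succ, h]
  x_p := by simp
  x_r a b k := by ext f l; simp
  d_p := by simp
  d_r k := by ext f l; simp
  p_p := by simp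
  p_r := by simp
  r_p := by simp
  r_r := by simp

/-- the truncated module -/
noncomputable def Inf : Rep := Rep.ofOps (G.sub j) (G.inf_rels j)

/-- underlying sequence -/
def val : (G.Inf j).V →ₗ[ℂ] (ℕ → G.W) := (G.sub j).subtype

variable {G j} in
lemma val_mem (f : (G.Inf j).V) (l : ℕ) : G.val j f l ∈ G.fam (l - j) := sub_mem (G := G) f l
variable {G j} in
lemma val_big (f : (G.Inf j).V) (l : ℕ) (h : 6 ≤ l) : G.val j f l = 0 := sub_big (G := G) f l h

variable {G j} in
lemma Inf_ext {f g : (G.Inf j).V} (h : ∀ l, G.val j f l = G.val j g l) : f = g :=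
  Subtype.ext (funext h)

/-- build an element -/
def mk' (f : ℕ → G.W) (h1 : ∀ l : ℕ, f l ∈ G.fam (l - j)) (h2 : ∀ l, 6 ≤ l → f l = 0) :
    (G.Inf j).V := (⟨f, fun l => ⟨h1 l, h2 l⟩⟩ : G.sub j)

@[simp] lemma val_mk' (f : ℕ → G.W) (h1 : ∀ l : ℕ, f l ∈ G.fam (l - j))
    (h2 : ∀ l, 6 ≤ l → f l = 0) : G.val j (G.mk' j f h1 h2) = f := rfl

lemma Inf_E (i : ℕ) (f : (G.Inf j).V) (l : ℕ) :
    G.val j ((G.Inf j).E i f) l = if l = i then G.val j f l else 0 := by
  have := Rep.ofOps_E (G.sub j) (G.inf_rels j) i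
  exact congrArg (fun T : Module.End ℂ (G.sub j) => (T f).1 l) this
@[simp] lemma Inf_X_zero (a b : Fin 2) (f : (G.Inf j).V) :
    G.val j ((G.Inf j).X a b f) 0 = 0 := by
  have := Rep.ofOps_X (G.sub j) (G.inf_rels j) a b
  exact congrArg (fun T : Module.End ℂ (G.sub j) => (T f).1 0) this
lemma Inf_X_succ (a b : Fin 2) (f : (G.Inf j).V) (l : ℕ) :
    G.val j ((G.Inf j).X a b f) (l + 1) = if l < 5 then G.ξ a b (G.val j f l) else 0 := by
  have := Rep.ofOps_X (G.sub j) (G.inf_rels j) a b
  exact congrArg (fun T : Module.End ℂ (G.sub j) => (T f).1 (l + 1)) this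
@[simp] lemma Inf_D_zero (f : (G.Inf j).V) : G.val j ((G.Inf j).D f) 0 = 0 := by
  have := Rep.ofOps_D (G.sub j) (G.inf_rels j)
  exact congrArg (fun T : Module.End ℂ (G.sub j) => (T f).1 0) this
lemma Inf_D_succ (f : (G.Inf j).V) (l : ℕ) :
    G.val j ((G.Inf j).D f) (l + 1) = if l < 5 then G.D (G.val j f l) else 0 := by
  have := Rep.ofOps_D (G.sub j) (G.inf_rels j)
  exact congrArg (fun T : Module.End ℂ (G.sub j) => (T f).1 (l + 1)) this
@[simp] lemma Inf_P (k : Fin 2) (f : (G.Inf j).V) : (G.Inf j).P k f = 0 := by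
  have := Rep.ofOps_P (G.sub j) (G.inf_rels j) k
  exact congrArg (fun T : Module.End ℂ (G.sub j) => T f) this
@[simp] lemma Inf_Q (k : Fin 2) (f : (G.Inf j).V) : (G.Inf j).Q k f = 0 := by
  have := Rep.ofOps_Q (G.sub j) (G.inf_rels j) k
  exact congrArg (fun T : Module.End ℂ (G.sub j) => T f) this

/-- an element concentrated in one degree -/
def single (l : ℕ) (hl : l < 6) (w : G.W) (hw : w ∈ G.fam (l - j)) : (G.Inf j).V :=
  G.mk' j (fun i => if i = l then w else 0)
    (fun i => by
      split_ifs with h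
      · subst h; exact hw
      · simp)
    (fun i hi => if_neg (by omega))

lemma single_val (l : ℕ) (hl : l < 6) (w : G.W) (hw : w ∈ G.fam (l - j)) (i : ℕ) :
    G.val j (G.single j l hl w hw) i = if i = l then w else 0 := rfl

lemma Inf_finite [FiniteDimensional ℂ G.W] : FiniteDimensional ℂ (G.Inf j).V := by
  let φ : (G.Inf j).V →ₗ[ℂ] (Fin 6 → G.W) :=
    { toFun := fun f l => G.val j f l
      map_add' := fun _ _ => by ext; simp
      map_smul' := fun _ _ => by ext; simp }
  refine FiniteDimensional.of_injective φ ((injective_iff_map_eq_zero φ).mpr fun f hf => ?_)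
  refine Inf_ext fun l => ?_
  by_cases h : l < 6
  · simpa [φ] using congrFun hf ⟨l, h⟩
  · simpa using val_big f l (by omega)

end GM

/-- morphisms of families, with shifts -/
structure IsGHom (G G' : GM) (j j' : ℤ) (φ : G.W →ₗ[ℂ] G'.W) : Prop where
  ξ : ∀ a b w, φ (G.ξ a b w) = G'.ξ a b (φ w)
  D : ∀ w, φ (G.D w) = G'.D (φ w)
  mem : ∀ z w, w ∈ G.fam (z - j) → φ w ∈ G'.fam (z - j')

namespace IsGHom

variable {G G' : GM} {j j' : ℤ} {φ : G.W →ₗ[ℂ] G'.W} (h : IsGHom G G' j j' φ)

noncomputable def map : (G.Inf j).V →ₗ[ℂ] (G'.Inf j').V where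
  toFun f := G'.mk' j' (fun l => φ (G.val j f l)) (fun l => h.mem _ _ (GM.val_mem f l))
    fun l hl => by simp [GM.val_big f l hl]
  map_add' f g := GM.Inf_ext fun l => by simp
  map_smul' c f := GM.Inf_ext fun l => by simp

@[simp] lemma map_val (f : (G.Inf j).V) (l : ℕ) : G'.val j' (h.map f) l = φ (G.val j f l) := rfl

lemma isHom : IsHom (G.Inf j) (G'.Inf j') h.map where
  E i f := GM.Inf_ext fun l => by
    simp only [map_val, GM.Inf_E]; split_ifs <;> simp
  X a b f := GM.Inf_ext fun l => by
    rcases l with _ | l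
    · simp
    · simp only [map_val, GM.Inf_X_succ]; split_ifs <;> simp [h.ξ]
  D f := GM.Inf_ext fun l => by
    rcases l with _ | l
    · simp
    · simp only [map_val, GM.Inf_D_succ]; split_ifs <;> simp [h.D]
  P k f := by simp
  Q k f := by simp

end IsGHom

namespace GM

variable (G : GM) (c : ℂ) (j : ℤ)

lemma inr_hom : IsGHom G.neg (G.cone c) (j + 1) j (LinearMap.inr ℂ G.W G.W) where
  ξ a b w := by ext <;> simp
  D w := by ext <;> simp
  mem z w hw := ⟨Submodule.zero_mem _, G.mem_congr (by ring) hw⟩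

lemma fst_hom : IsGHom (G.cone c) G j j (LinearMap.fst ℂ G.W G.W) where
  ξ a b w := by simp
  D w := by simp
  mem z w hw := hw.1

lemma cone_ses : IsSES (G.neg.Inf (j + 1)) ((G.cone c).Inf j) (G.Inf j)
    (G.inr_hom c j).map (G.fst_hom c j).map where
  hf := (G.inr_hom c j).isHom
  hg := (G.fst_hom c j).isHom
  inj f g h := Inf_ext fun l => by
    have := congrArg (fun u => ((G.cone c).val j u l).2) h
    simpa using this
  surj f := ⟨(G.cone c).mk' j (fun l => (G.val j f l, 0))
    (fun l => ⟨val_mem f l, Submodule.zero_mem _⟩) fun l hl => by simp [val_big f l hl],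
      Inf_ext fun l => by simp⟩
  exact f := by
    constructor
    · intro h
      refine ⟨G.neg.mk' (j + 1) (fun l => ((G.cone c).val j f l).2)
        (fun l => G.mem_congr (by ring) (val_mem f l).2) fun l hl => by simp [val_big f l hl], ?_⟩
      refine Inf_ext fun l => ?_
      ext
      · have := congrArg (fun u => G.val j u l) h
        simpa using this.symm
      · simp
    · rintro ⟨g, rfl⟩
      exact Inf_ext fun l => by simp

end GM

end Crest.Agent.R178
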