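import Crest.Agent.R178.Decomp

/-!
The main induction.
-/

set_option autoImplicit false

namespace Crest.Agent.R178

open Module

lemma pd_zero_of_one {G : GM} {N : TRep} {ι : N.M →ₗ[ℂ] G.W} (h : IsCE G N ι) {m : ℕ}
    (h1 : (G.neg.Inf 1).PD m) : (G.Inf 0).PD (m + 1) :=
  (G.cone_ses 1 0).pd₃ h1 ((h.pd_cone_zero one_ne_zero).mono (by omega))

lemma pd_one_of_zero {G : GM} {N : TRep} {ι : N.M →ₗ[ℂ] G.W} (h : IsCE G N ι) {m : ℕ}
    (h1 : (G.Inf 0).PD (m + 2)) : (G.neg.Inf 1).PD (m + 1) :=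
  (G.cone_ses 1 0).pd₁ ((h.pd_cone_zero one_ne_zero).mono (by omega)) h1

lemma upper_step {G G' : GM} {N : TRep} {ι : N.M →ₗ[ℂ] G.W} (h : IsCE G N ι) {n : ℕ}
    (hN : N.IsType n) {ι' : N.down.M →ₗ[ℂ] G'.W} (h' : IsCE G' N.down ι') {m : ℕ}
    (h1 : (G'.neg.Inf 1).PD m) : (G.Inf 1).PD (m + 6) := by
  have h0 := h.pos.E0 (j := 1) le_rfl
  have hF : (G.F.Inf 0).PD (m + 1) :=
    (decomp h hN h').1 m (pd_zero_of_one h' h1) (h1.mono (by omega))
  have hGr : ((G.Inf 1).Gr h0).PD (m + 1) :=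
    (Rep.PD.of_bijective (beta_hom G h0) (beta_bij h h0)).mp hF
  exact (Rep.ind_ses _ h0 (GM.Inf_P _ _) (GM.Inf_Q _ _)).pd₃ (hGr.mono (by omega))
    ((ind_upper 5 1 (by norm_num) le_rfl G N ι h h0).mono (by omega))

lemma pd_of_trivial {G : GM} {N : TRep} {ι : N.M →ₗ[ℂ] G.W} (h : IsCE G N ι)
    (hN : ∀ m : N.M, m = 0) (j : ℤ) : (G.Inf j).PD 0 := by
  rw [Rep.pd_zero_iff]
  intro v
  refine GM.Inf_ext fun l => ?_
  have := h.gen ⊥ (fun m => by simp [hN m]) (fun a b w hw => by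
    rw [Submodule.mem_bot] at *; rw [hw, map_zero]) (G.val j v l)
  simpa using this

lemma down_trivial {N : TRep} [FiniteDimensional ℂ N.M] (hN : N.IsType 0) (m : N.down.M) :
    m = 0 := by
  have := TRep.rank_down hN
  simp only [zero_add, one_mul, zero_mul] at this
  exact (finrank_zero_iff_forall_zero.mp this) m

theorem upper : ∀ (n : ℕ) (N : TRep), N.IsType n → FiniteDimensional ℂ N.M →
    ∀ (G : GM) (ι : N.M →ₗ[ℂ] G.W), IsCE G N ι → ∃ m, (G.Inf 1).PD m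
  | 0, N, hN, _, G, ι, h => by
    obtain ⟨G', ι', h'⟩ := exists_CE N.down
    exact ⟨_, upper_step h hN h' (pd_of_trivial h'.neg (down_trivial hN) 1)⟩
  | n + 1, N, hN, _, G, ι, h => by
    obtain ⟨G', ι', h'⟩ := exists_CE N.down
    obtain ⟨m, hm⟩ := upper n N.down hN.down inferInstance G'.neg ι' h'.neg
    exact ⟨_, upper_step h hN h' hm⟩

theorem lower : ∀ (n : ℕ) (N : TRep), N.IsType n → FiniteDimensional ℂ N.M → 0 < finrank ℂ N.M →
    ∀ (G : GM) (ι : N.M →ₗ[ℂ] G.W), IsCE G N ι → ¬ (G.Inf 1).PD (2 * n + 4)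
  | 0, N, hN, _, hpos, G, ι, h => by
    intro hpd
    obtain ⟨G', ι', h'⟩ := exists_CE N.down
    have h0 := h.pos.E0 (j := 1) le_rfl
    have hF : (G.F.Inf 0).PD (0 + 1) :=
      (decomp h hN h').1 0 ((pd_of_trivial h' (down_trivial hN) 0).mono (by omega))
        ((pd_of_trivial h'.neg (down_trivial hN) 1).mono (by omega))
    have hGr : ((G.Inf 1).Gr h0).PD (0 + 1) :=
      (Rep.PD.of_bijective (beta_hom G h0) (beta_bij h h0)).mp hF
    have hI := (Rep.ind_ses _ h0 (GM.Inf_P _ _) (GM.Inf_Q _ _)).pd₂ (hGr.mono (by omega)) hpd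
    have := ind_lower 3 1 (by norm_num) le_rfl G N ι h h0 hI
    rw [finrank_zero_iff_forall_zero.mpr this] at hpos
    omega
  | n + 1, N, hN, _, hpos, G, ι, h => by
    intro hpd
    obtain ⟨G', ι', h'⟩ := exists_CE N.down
    have h0 := h.pos.E0 (j := 1) le_rfl
    have hGr : ((G.Inf 1).Gr h0).PD (2 * n + 5) :=
      (Rep.ind_ses _ h0 (GM.Inf_P _ _) (GM.Inf_Q _ _)).pd₁
        ((ind_upper 5 1 (by norm_num) le_rfl G N ι h h0).mono (by omega)) hpd
    have hF : (G.F.Inf 0).PD (2 * n + 5) :=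
      (Rep.PD.of_bijective (beta_hom G h0) (beta_bij h h0)).mpr hGr
    have h1 := pd_one_of_zero h' ((decomp h hN h').2 _ hF)
    refine lower n N.down hN.down inferInstance ?_ G'.neg ι' h'.neg h1
    have := TRep.rank_down hN
    refine Nat.pos_of_ne_zero fun hz => ?_
    rw [hz] at this
    have h2 : 0 < (n + 1) * finrank ℂ N.M := by positivity
    omega

theorem main (k : ℕ) : ∃ N : ModuleCat.{0} A, Module.Finite A N ∧
    ¬ CategoryTheory.HasProjectiveDimensionLT N k ∧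
    ∃ n : ℕ, CategoryTheory.HasProjectiveDimensionLT N n := by
  obtain ⟨N, h1, h2, h3⟩ := TRep.exists_type k
  obtain ⟨G, ι, h⟩ := exists_CE N
  have := h.finite
  have := G.Inf_finite 1
  refine ⟨(G.Inf 1).obj, Rep.finite _, fun hk => ?_, upper k N h1 h2 G ι h⟩
  exact lower k N h1 h2 h3 G ι h (Rep.PD.mono hk (by omega))

end Crest.Agent.R178
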