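import Mathlib

/-!
Operators satisfying the Chevalley-Eilenberg relations of gl(2), and two constructions on them.
-/

set_option autoImplicit false

namespace Crest.Agent.R178

lemma fin2 (a : Fin 2) : a = 0 ∨ a = 1 := by
  fin_cases a <;> simp

section

variable {W : Type} [AddCommGroup W] [Module ℂ W]

/-- anticommuting family -/
def Anti (ξ : Fin 2 → Fin 2 → Module.End ℂ W) : Prop :=
  ∀ a b a' b' w, ξ a b (ξ a' b' w) = -ξ a' b' (ξ a b w)

lemma Anti.sq {ξ : Fin 2 → Fin 2 → Module.End ℂ W} (h : Anti ξ) (a b : Fin 2) (w : W) :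
    ξ a b (ξ a b w) = 0 := by
  have h1 := h a b a b w
  have h2 : (2 : ℂ) • ξ a b (ξ a b w) = 0 := by
    rw [two_smul]; nth_rewrite 1 [h1]; simp
  simpa using h2

lemma Anti.neg {ξ : Fin 2 → Fin 2 → Module.End ℂ W} (h : Anti ξ) : Anti (fun a b => -ξ a b) := by
  intro a b a' b' w
  simp [h a b a' b' w]

/-- the relations -/
structure GRel (ξ : Fin 2 → Fin 2 → Module.End ℂ W) (D : Module.End ℂ W) : Prop where
  xx : Anti ξ
  dx : ∀ a b w, D (ξ a b w) = ξ a 0 (ξ 0 b w) + ξ a 1 (ξ 1 b w) - ξ a b (D w)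
  dd : ∀ w, D (D w) = 0

namespace Anti
variable {ξ : Fin 2 → Fin 2 → Module.End ℂ W} (h : Anti ξ)
include h
lemma o1 (w : W) : ξ 0 1 (ξ 0 0 w) = -ξ 0 0 (ξ 0 1 w) := h _ _ _ _ _
lemma o2 (w : W) : ξ 1 0 (ξ 0 0 w) = -ξ 0 0 (ξ 1 0 w) := h _ _ _ _ _
lemma o3 (w : W) : ξ 1 1 (ξ 0 0 w) = -ξ 0 0 (ξ 1 1 w) := h _ _ _ _ _
lemma o4 (w : W) : ξ 1 0 (ξ 0 1 w) = -ξ 0 1 (ξ 1 0 w) := h _ _ _ _ _
lemma o5 (w : W) : ξ 1 1 (ξ 0 1 w) = -ξ 0 1 (ξ 1 1 w) := h _ _ _ _ _
lemma o6 (w : W) : ξ 1 1 (ξ 1 0 w) = -ξ 1 0 (ξ 1 1 w) := h _ _ _ _ _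
end Anti

lemma GRel.neg {ξ : Fin 2 → Fin 2 → Module.End ℂ W} {D : Module.End ℂ W} (h : GRel ξ D) :
    GRel (fun a b => -ξ a b) (-D) where
  xx := h.xx.neg
  dx a b w := by simp [h.dx]
  dd w := by simp [h.dd]

/-- pointwise action on pairs -/
def pw (T : Module.End ℂ W) : Module.End ℂ (Fin 2 → W) where
  toFun u k := T (u k)
  map_add' u v := by ext k; simp
  map_smul' c u := by ext k; simp

@[simp] lemma pw_apply (T : Module.End ℂ W) (u : Fin 2 → W) (k : Fin 2) : pw T u k = T (u k) := rfl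

/-- the differential twisted by the two-dimensional representation -/
def DV (ξ : Fin 2 → Fin 2 → Module.End ℂ W) (D : Module.End ℂ W) : Module.End ℂ (Fin 2 → W) where
  toFun u k := D (u k) + (ξ 0 k (u 0) + ξ 1 k (u 1)) - (ξ 0 0 (u k) + ξ 1 1 (u k))
  map_add' u v := by ext k; simp; abel
  map_smul' c u := by ext k; simp [smul_add, smul_sub]

lemma DV_apply (ξ : Fin 2 → Fin 2 → Module.End ℂ W) (D : Module.End ℂ W) (u : Fin 2 → W)
    (k : Fin 2) :
    DV ξ D u k = D (u k) + (ξ 0 k (u 0) + ξ 1 k (u 1)) - (ξ 0 0 (u k) + ξ 1 1 (u k)) := rfl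

/-- matrix units -/
def sOp (a b : Fin 2) : Module.End ℂ (Fin 2 → W) where
  toFun u k := if k = a then u b else 0
  map_add' u v := by ext k; by_cases h : k = a <;> simp [h]
  map_smul' c u := by ext k; by_cases h : k = a <;> simp [h]

lemma sOp_apply (a b : Fin 2) (u : Fin 2 → W) (k : Fin 2) :
    sOp a b u k = if k = a then u b else 0 := rfl

def eta (ξ : Fin 2 → Fin 2 → Module.End ℂ W) (a b : Fin 2) :
    Module.End ℂ ((Fin 2 → W) × (Fin 2 → W)) where
  toFun u := (pw (ξ a b) u.1, sOp a b u.1 - pw (ξ a b) u.2)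
  map_add' u v := by ext k <;> simp; abel
  map_smul' c u := by ext k <;> simp [smul_sub]

@[simp] lemma eta_fst (ξ : Fin 2 → Fin 2 → Module.End ℂ W) (a b : Fin 2)
    (u : (Fin 2 → W) × (Fin 2 → W)) : (eta ξ a b u).1 = pw (ξ a b) u.1 := rfl
@[simp] lemma eta_snd (ξ : Fin 2 → Fin 2 → Module.End ℂ W) (a b : Fin 2)
    (u : (Fin 2 → W) × (Fin 2 → W)) : (eta ξ a b u).2 = sOp a b u.1 - pw (ξ a b) u.2 := rfl

def DF (ξ : Fin 2 → Fin 2 → Module.End ℂ W) (D : Module.End ℂ W) :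
    Module.End ℂ ((Fin 2 → W) × (Fin 2 → W)) where
  toFun u := (DV ξ D u.1, -DV ξ D u.2)
  map_add' u v := by ext k <;> simp; abel
  map_smul' c u := by ext k <;> simp

@[simp] lemma DF_fst (ξ : Fin 2 → Fin 2 → Module.End ℂ W) (D : Module.End ℂ W)
    (u : (Fin 2 → W) × (Fin 2 → W)) : (DF ξ D u).1 = DV ξ D u.1 := rfl
@[simp] lemma DF_snd (ξ : Fin 2 → Fin 2 → Module.End ℂ W) (D : Module.End ℂ W)
    (u : (Fin 2 → W) × (Fin 2 → W)) : (DF ξ D u).2 = -DV ξ D u.2 := rfl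

variable {ξ : Fin 2 → Fin 2 → Module.End ℂ W} {D : Module.End ℂ W}

lemma Anti.pw (h : Anti ξ) : Anti (fun a b => pw (ξ a b)) := by
  intro a b a' b' u
  ext k
  simp [h a b a' b']

lemma GRel.tens (h : GRel ξ D) : GRel (fun a b => pw (ξ a b)) (DV ξ D) where
  xx := h.xx.pw
  dx a b u := by
    ext k
    rcases fin2 a with rfl | rfl <;> rcases fin2 b with rfl | rfl <;>
      rcases fin2 k with rfl | rfl <;>
      simp [DV_apply, h.dx, h.xx.o1, h.xx.o2, h.xx.o3, h.xx.o4, h.xx.o5, h.xx.o6, h.xx.sq] <;> abel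
  dd u := by
    ext k
    rcases fin2 k with rfl | rfl <;>
      simp [DV_apply, h.dx, h.dd, h.xx.o1, h.xx.o2, h.xx.o3, h.xx.o4, h.xx.o5, h.xx.o6,
        h.xx.sq] <;> abel

lemma Anti.eta (h : Anti ξ) : Anti (eta ξ) := by
  intro a b a' b' u
  ext k
  · simp [h a b a' b']
  · simp only [eta_fst, eta_snd, Pi.sub_apply, sOp_apply, pw_apply, map_sub, Prod.snd_neg,
      Pi.neg_apply, h a b a' b']
    split_ifs <;> simp <;> abel

lemma GRel.eta (h : GRel ξ D) : GRel (eta ξ) (DF ξ D) where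
  xx := h.xx.eta
  dx a b u := by
    ext k
    · simp [h.tens.dx]
    · rcases fin2 a with rfl | rfl <;> rcases fin2 b with rfl | rfl <;>
      rcases fin2 k with rfl | rfl <;>
      simp [DV_apply, sOp_apply, h.dx, h.xx.o1, h.xx.o2, h.xx.o3, h.xx.o4, h.xx.o5, h.xx.o6,
        h.xx.sq] <;> abel
  dd u := by
    ext k <;> simp [h.tens.dd]

/-- cone construction: odd operators -/
def coneX (T : Module.End ℂ W) : Module.End ℂ (W × W) where
  toFun u := (T u.1, -T u.2)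
  map_add' u v := by ext <;> simp; abel
  map_smul' c u := by ext <;> simp

@[simp] lemma coneX_fst (T : Module.End ℂ W) (u : W × W) : (coneX T u).1 = T u.1 := rfl
@[simp] lemma coneX_snd (T : Module.End ℂ W) (u : W × W) : (coneX T u).2 = -T u.2 := rfl

/-- cone construction: differential -/
def coneD (c : ℂ) (D : Module.End ℂ W) : Module.End ℂ (W × W) where
  toFun u := (D u.1, c • u.1 - D u.2)
  map_add' u v := by ext <;> simp; abel
  map_smul' a u := by ext <;> simp [smul_sub, smul_comm a c]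

@[simp] lemma coneD_fst (c : ℂ) (D : Module.End ℂ W) (u : W × W) : (coneD c D u).1 = D u.1 := rfl
@[simp] lemma coneD_snd (c : ℂ) (D : Module.End ℂ W) (u : W × W) :
    (coneD c D u).2 = c • u.1 - D u.2 := rfl

lemma GRel.cone (h : GRel ξ D) (c : ℂ) : GRel (fun a b => coneX (ξ a b)) (coneD c D) where
  xx a b a' b' u := by ext <;> simp [h.xx a b a' b']
  dx a b u := by
    ext
    · simp [h.dx]
    · simp [h.dx]; abel
  dd u := by ext <;> simp [h.dd]

end

end Crest.Agent.R178
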