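import Crest.Agent.R178.Inf
import Crest.Agent.R178.Ind

/-!
Projectivity of the cone modules.
-/

set_option autoImplicit false

namespace Crest.Agent.R178

open Finset

namespace Rep

variable (Y : Rep)

/-- homogeneous elements -/
def deg (z : ℤ) : Submodule ℂ Y.V where
  carrier := {y | ∀ i : ℕ, Y.E i y = if (i : ℤ) = z then y else 0}
  add_mem' {a b} ha hb i := by
    rw [map_add, ha i, hb i]; split_ifs <;> simp
  zero_mem' i := by simp
  smul_mem' c a ha i := by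
    rw [map_smul, ha i]; split_ifs <;> simp

lemma mem_deg {z : ℤ} {y : Y.V} : y ∈ Y.deg z ↔ ∀ i : ℕ, Y.E i y = if (i : ℤ) = z then y else 0 :=
  Iff.rfl

lemma deg_out {z : ℤ} (hz : z < 0 ∨ 6 ≤ z) {y : Y.V} (hy : y ∈ Y.deg z) : y = 0 := by
  rw [← Y.E_sum y]
  refine sum_eq_zero fun i hi => ?_
  rw [hy i, if_neg]
  simp at hi
  omega

lemma raise_deg (T : Module.End ℂ Y.V) (hT : ∀ i v, T (Y.E i v) = Y.E (i + 1) (T v))
    {z : ℤ} {y : Y.V} (hy : y ∈ Y.deg z) : T y ∈ Y.deg (z + 1) := by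
  by_cases hz : z < 0 ∨ 6 ≤ z
  · rw [Y.deg_out hz hy, map_zero]; exact Submodule.zero_mem _
  · obtain ⟨n, rfl⟩ : ∃ n : ℕ, z = n := ⟨z.toNat, by omega⟩
    have h1 : Y.E n y = y := by simpa using hy n
    intro i
    rw [← h1, hT, Y.E_E]
    by_cases h : i = n + 1
    · subst h; simp
    · rw [if_neg h, if_neg (by omega)]

lemma X_deg (a b : Fin 2) {z : ℤ} {y : Y.V} (hy : y ∈ Y.deg z) : Y.X a b y ∈ Y.deg (z + 1) :=
  Y.raise_deg _ (Y.X_E a b) hy

lemma D_deg {z : ℤ} {y : Y.V} (hy : y ∈ Y.deg z) : Y.D y ∈ Y.deg (z + 1) :=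
  Y.raise_deg _ Y.D_E hy

lemma E_deg (j : ℕ) (y : Y.V) : Y.E j y ∈ Y.deg j := by
  intro i
  rw [Y.E_E]
  by_cases h : i = j
  · subst h; simp
  · rw [if_neg h, if_neg (by omega)]

end Rep

namespace GM

/-- the family vanishes in negative degrees -/
def Pos (G : GM) : Prop := ∀ z < 0, ∀ w ∈ G.fam z, w = 0

lemma Pos.cone {G : GM} (h : G.Pos) (c : ℂ) : (G.cone c).Pos := fun z hz w hw =>
  Prod.ext (h z hz _ hw.1) (h (z - 1) (by omega) _ hw.2)

lemma Pos.E0 {G : GM} (h : G.Pos) {j : ℤ} (hj : 1 ≤ j) (v : (G.Inf j).V) :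
    (G.Inf j).E 0 v = 0 := by
  refine Inf_ext fun l => ?_
  rw [Inf_E]
  split_ifs with hl
  · subst hl
    simpa using h _ (by simp; omega) _ (val_mem v 0)
  · simp

/-- summing over the degrees -/
noncomputable def sumMap (G : GM) (j : ℤ) {Y : Rep} (ψ : G.W →ₗ[ℂ] Y.V) :
    (G.Inf j).V →ₗ[ℂ] Y.V where
  toFun u := ∑ l ∈ range 6, ψ (G.val j u l)
  map_add' u v := by simp [sum_add_distrib]
  map_smul' c u := by simp [smul_sum]

lemma sumMap_apply (G : GM) (j : ℤ) {Y : Rep} (ψ : G.W →ₗ[ℂ] Y.V) (u : (G.Inf j).V) :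
    G.sumMap j ψ u = ∑ l ∈ range 6, ψ (G.val j u l) := rfl

lemma sumMap_bhom (G : GM) (j : ℤ) {Y : Rep} (ψ : G.W →ₗ[ℂ] Y.V)
    (hX : ∀ a b w, ψ (G.ξ a b w) = Y.X a b (ψ w)) (hD : ∀ w, ψ (G.D w) = Y.D (ψ w))
    (hdeg : ∀ (l : ℕ) w, w ∈ G.fam (l - j) → ψ w ∈ Y.deg l) :
    IsBHom (G.Inf j) Y (G.sumMap j ψ) where
  E i u := by
    simp only [sumMap_apply, map_sum, Inf_E]
    refine sum_congr rfl fun l _ => ?_
    rw [hdeg l _ (val_mem u l) i]
    by_cases h : l = i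
    · subst h; simp
    · rw [if_neg h, if_neg (by omega), map_zero]
  X a b u := by
    have h5 : Y.X a b (ψ (G.val j u 5)) = 0 :=
      Y.deg_out (Or.inr (by norm_num)) (Y.X_deg a b (hdeg 5 _ (val_mem u 5)))
    rw [sumMap_apply, sumMap_apply, map_sum, sum_range_succ', sum_range_succ _ 5, h5]
    simp only [Inf_X_zero, map_zero, add_zero, Inf_X_succ]
    refine sum_congr rfl fun l hl => ?_
    rw [if_pos (by simpa using hl), hX]
  D u := by
    have h5 : Y.D (ψ (G.val j u 5)) = 0 :=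
      Y.deg_out (Or.inr (by norm_num)) (Y.D_deg (hdeg 5 _ (val_mem u 5)))
    rw [sumMap_apply, sumMap_apply, map_sum, sum_range_succ', sum_range_succ _ 5, h5]
    simp only [Inf_D_zero, map_zero, add_zero, Inf_D_succ]
    refine sum_congr rfl fun l hl => ?_
    rw [if_pos (by simpa using hl), hD]

end GM

namespace IsCE

variable {G : GM} {N : TRep} {ι : N.M →ₗ[ℂ] G.W} (h : IsCE G N ι)

include h in
lemma pos : G.Pos := fun _ hz w hw => h.neg_bot hz w hw

/-- generators of the cone module -/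
noncomputable def pgen (c : ℂ) (j : ℕ) (hj : j < 6) : N.M →ₗ[ℂ] ((G.cone c).Inf j).V where
  toFun m := (G.cone c).single j j hj (ι m, 0)
    ⟨G.mem_congr (by simp) (h.ι_mem m), Submodule.zero_mem _⟩
  map_add' m m' := GM.Inf_ext fun l => by
    simp only [GM.single_val, map_add, Pi.add_apply]; split_ifs <;> simp
  map_smul' a m := GM.Inf_ext fun l => by
    simp only [GM.single_val, map_smul, Pi.smul_apply, RingHom.id_apply]; split_ifs <;> simp

lemma pgen_val (c : ℂ) (j : ℕ) (hj : j < 6) (m : N.M) (l : ℕ) :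
    (G.cone c).val j (h.pgen c j hj m) l = if l = j then (ι m, 0) else 0 := rfl

lemma pgen_E (c : ℂ) (j : ℕ) (hj : j < 6) (m : N.M) :
    ((G.cone c).Inf j).E j (h.pgen c j hj m) = h.pgen c j hj m :=
  GM.Inf_ext fun l => by
    rw [GM.Inf_E, pgen_val]; split_ifs <;> rfl

lemma P_gen {c : ℂ} (hc : c ≠ 0) (j : ℕ) (hj : j < 6) (S : Submodule ℂ ((G.cone c).Inf j).V)
    (h0 : ∀ m, h.pgen c j hj m ∈ S)
    (hX : ∀ a b u, u ∈ S → ((G.cone c).Inf j).X a b u ∈ S)
    (hD : ∀ u, u ∈ S → ((G.cone c).Inf j).D u ∈ S) (u : ((G.cone c).Inf j).V) : u ∈ S := by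
  let S1 : ℤ → Submodule ℂ G.W := fun z =>
    { carrier := {w | ∀ l : ℕ, l < 6 → z = l - j →
        ∃ u ∈ S, ∀ i, (G.cone c).val j u i = if i = l then (w, 0) else 0}
      add_mem' := by
        intro a b ha hb l hl hz
        obtain ⟨u, hu, hu'⟩ := ha l hl hz
        obtain ⟨v, hv, hv'⟩ := hb l hl hz
        refine ⟨u + v, S.add_mem hu hv, fun i => ?_⟩
        simp only [map_add, Pi.add_apply, hu', hv']; split_ifs <;> simp
      zero_mem' := fun l _ _ => ⟨0, S.zero_mem, fun i => by simp [Prod.mk_zero_zero]⟩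
      smul_mem' := by
        intro a w hw l hl hz
        obtain ⟨u, hu, hu'⟩ := hw l hl hz
        refine ⟨a • u, S.smul_mem a hu, fun i => ?_⟩
        simp only [map_smul, Pi.smul_apply, hu']; split_ifs <;> simp }
  have key1 : ∀ z w, w ∈ G.fam z → w ∈ S1 z := by
    refine h.fam_le S1 (fun m l hl hz => ?_) (fun a b z w hw hw' l hl hz => ?_)
    · obtain rfl : l = j := by omega
      exact ⟨_, h0 m, h.pgen_val c l hj m⟩
    · rcases l with _ | l
      · rw [h.neg_bot (by omega) w hw]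
        exact ⟨0, S.zero_mem, fun i => by simp [Prod.mk_zero_zero]⟩
      · obtain ⟨u, hu, hu'⟩ := hw' l (by omega) (by push_cast at hz; omega)
        refine ⟨_, hX a b u hu, fun i => ?_⟩
        rcases i with _ | i
        · simp
        · rw [GM.Inf_X_succ, hu']
          by_cases hi : i = l
          · subst hi
            rw [if_pos (by omega), if_pos rfl, if_pos rfl]
            ext <;> simp
          · simp [hi]
  have key2 : ∀ (l : ℕ) w, l < 6 → w ∈ G.fam (l - j - 1) →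
      ∃ u ∈ S, ∀ i, (G.cone c).val j u i = if i = l then (0, w) else 0 := by
    intro l w hl hw
    rcases l with _ | l
    · rw [h.neg_bot (by omega) w hw]
      exact ⟨0, S.zero_mem, fun i => by simp [Prod.mk_zero_zero]⟩
    · obtain ⟨u, hu, hu'⟩ := key1 _ w hw l (by omega) (by push_cast; ring)
      obtain ⟨v, hv, hv'⟩ := key1 _ _ (G.D_mem _ _ hw) (l + 1) hl (by push_cast; ring)
      refine ⟨c⁻¹ • (((G.cone c).Inf j).D u - v), S.smul_mem _ (S.sub_mem (hD u hu) hv),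
        fun i => ?_⟩
      simp only [map_smul, map_sub, Pi.smul_apply, Pi.sub_apply, hv']
      rcases i with _ | i
      · simp
      · rw [GM.Inf_D_succ, hu']
        by_cases hi : i = l
        · subst hi
          rw [if_pos (by omega), if_pos rfl, if_pos rfl, if_pos rfl]
          ext
          · simp
          · simp [smul_smul, hc]
        · simp [hi]
  have key3 : ∀ l : ℕ, l < 6 → ∃ v ∈ S, ∀ i, (G.cone c).val j v i =
      if i = l then (G.cone c).val j u l else 0 := by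
    intro l hl
    obtain ⟨v1, hv1, hv1'⟩ := key1 _ _ (GM.val_mem u l).1 l hl rfl
    obtain ⟨v2, hv2, hv2'⟩ := key2 l _ hl (GM.val_mem u l).2
    refine ⟨v1 + v2, S.add_mem hv1 hv2, fun i => ?_⟩
    simp only [map_add, Pi.add_apply, hv1', hv2']
    split_ifs <;> simp
  choose! v hv hv' using key3
  have : u = ∑ l ∈ range 6, v l := by
    refine GM.Inf_ext fun i => ?_
    rw [map_sum, Finset.sum_apply, sum_congr rfl fun l hl => hv' l (by simpa using hl) i,
      sum_ite_eq]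
    split_ifs with hi
    · rfl
    · exact GM.val_big u i (by simpa using hi)
  rw [this]
  exact S.sum_mem fun l hl => hv l (by simpa using hl)

lemma P_lift {c : ℂ} (hc : c ≠ 0) (j : ℕ) (hj : j < 6) (Y : Rep) (f : N.M →ₗ[ℂ] Y.V)
    (hf : ∀ m, f m ∈ Y.deg j) :
    ∃ φ : ((G.cone c).Inf j).V →ₗ[ℂ] Y.V, IsBHom _ Y φ ∧ ∀ m, φ (h.pgen c j hj m) = f m := by
  obtain ⟨φ0, h1, h2⟩ := h.lift Y.V Y.X Y.grel.xx f
  let φ1 : G.W →ₗ[ℂ] Y.V := c⁻¹ • (Y.D ∘ₗ φ0 - φ0 ∘ₗ G.D)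
  have hφ1 : ∀ w, φ1 w = c⁻¹ • (Y.D (φ0 w) - φ0 (G.D w)) := fun w => rfl
  have hdeg0 : ∀ z w, w ∈ G.fam z → φ0 w ∈ Y.deg (z + j) :=
    h.map_mem φ0 (fun z => Y.deg (z + j)) (fun m => by simpa [h2] using hf m)
      (fun a b z w _ hw => by
        rw [h1, show z + 1 + j = z + j + 1 by ring]; exact Y.X_deg a b hw)
  have hdeg1 : ∀ z w, w ∈ G.fam z → φ1 w ∈ Y.deg (z + j + 1) := fun z w hw => by
    rw [hφ1]
    refine Submodule.smul_mem _ _ (Submodule.sub_mem _ (Y.D_deg (hdeg0 z w hw)) ?_)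
    rw [show z + j + 1 = z + 1 + j by ring]
    exact hdeg0 _ _ (G.D_mem _ _ hw)
  let ψ : (G.cone c).W →ₗ[ℂ] Y.V := φ0.coprod φ1
  have hψ : ∀ w : G.W × G.W, ψ w = φ0 w.1 + φ1 w.2 := fun w => rfl
  refine ⟨(G.cone c).sumMap j ψ, (G.cone c).sumMap_bhom j ψ (fun a b w => ?_) (fun w => ?_)
    (fun l w hw => ?_), fun m => ?_⟩
  · simp only [hψ, coneX_fst, coneX_snd, hφ1, map_neg, h1, G.rel.dx, Y.grel.dx, map_add, map_sub,
      map_smul]
    module
  · simp only [hψ, coneD_fst, coneD_snd, hφ1, map_add, map_sub, map_smul, G.rel.dd, Y.grel.dd,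
      map_zero, smul_sub, smul_smul, inv_mul_cancel₀ hc, one_smul]
    module
  · rw [hψ]
    refine Submodule.add_mem _ ?_ ?_
    · simpa using hdeg0 _ _ hw.1
    · have := hdeg1 _ _ hw.2
      rwa [show (l : ℤ) - j - 1 + j + 1 = l by ring] at this
  · rw [GM.sumMap_apply]
    simp only [pgen_val]
    rw [sum_eq_single j (fun b _ hb => by simp [hb]) (fun hb => by simp at hb; omega)]
    simp [hψ, h2]

include h in
lemma pd_cone_zero {c : ℂ} (hc : c ≠ 0) : ((G.cone c).Inf ((0 : ℕ) : ℤ)).PD 1 := by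
  refine Rep.pd_one_of_split _ fun Y π hπ hs => ?_
  obtain ⟨s, hs⟩ := π.exists_rightInverse_of_surjective (LinearMap.range_eq_top.mpr hs)
  have hs' : ∀ v, π (s v) = v := fun v => LinearMap.congr_fun hs v
  obtain ⟨φ, hφ, hφ'⟩ := h.P_lift hc 0 (by norm_num) Y
    (Y.E 0 ∘ₗ s ∘ₗ h.pgen c 0 (by norm_num)) (fun m => Y.E_deg 0 _)
  let S : Submodule ℂ Y.V := (⨅ k, LinearMap.ker (Y.P k)) ⊓ (⨅ k, LinearMap.ker (Y.Q k))
  have hS : ∀ y, y ∈ S ↔ (∀ k, Y.P k y = 0) ∧ ∀ k, Y.Q k y = 0 := fun y => by simp [S]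
  have hSX : ∀ a b y, y ∈ S → Y.X a b y ∈ S := by
    intro a b y hy
    rw [hS] at *
    refine ⟨fun k => ?_, fun k => ?_⟩
    · have := Y.X_P a b k y
      simpa [hy.1, hy.2] using this.symm
    · have := Y.X_Q a b k y
      simpa [hy.2] using this.symm
  have hSD : ∀ y, y ∈ S → Y.D y ∈ S := by
    intro y hy
    have hx := fun a b => (hS _).mp (hSX a b y hy)
    rw [hS] at *
    refine ⟨fun k => ?_, fun k => ?_⟩
    · have := Y.D_P k y
      simpa [hy.1, (hx _ _).1] using this.symm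
    · have := Y.D_Q k y
      simpa [hy.2, (hx _ _).2] using this.symm
  have hmem : ∀ u, φ u ∈ S := h.P_gen hc 0 (by norm_num) (S.comap φ)
    (fun m => by
      rw [Submodule.mem_comap, hφ', hS]
      exact ⟨fun k => Y.P_E0 k _, fun k => Y.Q_E0 k _⟩)
    (fun a b u hu => by rw [Submodule.mem_comap, hφ.X]; exact hSX a b _ hu)
    (fun u hu => by rw [Submodule.mem_comap, hφ.D]; exact hSD _ hu)
  refine ⟨φ, ⟨hφ, fun k v => ?_, fun k v => ?_⟩, ?_⟩
  · rw [GM.Inf_P, map_zero, ((hS _).mp (hmem v)).1]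
  · rw [GM.Inf_Q, map_zero, ((hS _).mp (hmem v)).2]
  · refine h.P_gen hc 0 (by norm_num) (LinearMap.eqLocus (π ∘ₗ φ) LinearMap.id) (fun m => ?_)
      (fun a b u hu => ?_) (fun u hu => ?_)
    · simp only [LinearMap.mem_eqLocus, LinearMap.comp_apply, LinearMap.id_apply, hφ', hπ.E, hs']
      exact h.pgen_E c 0 _ m
    · simp only [LinearMap.mem_eqLocus, LinearMap.comp_apply, LinearMap.id_apply] at hu ⊢
      rw [hφ.X, hπ.X, hu]
    · simp only [LinearMap.mem_eqLocus, LinearMap.comp_apply, LinearMap.id_apply] at hu ⊢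
      rw [hφ.D, hπ.D, hu]

include h in
lemma pd_ind_cone {c : ℂ} (hc : c ≠ 0) (j : ℕ) (hj : j < 6)
    (h0 : ∀ v, ((G.cone c).Inf j).E 0 v = 0) : (((G.cone c).Inf j).Ind h0).PD 1 := by
  refine Rep.pd_one_of_split _ fun Y π hπ hs => ?_
  obtain ⟨s, hs⟩ := π.exists_rightInverse_of_surjective (LinearMap.range_eq_top.mpr hs)
  have hs' : ∀ v, π (s v) = v := fun v => LinearMap.congr_fun hs v
  obtain ⟨φ, hφ, hφ'⟩ := h.P_lift hc j hj Y
    (Y.E j ∘ₗ s ∘ₗ Rep.indIncl _ h0 ∘ₗ h.pgen c j hj) (fun m => Y.E_deg j _)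
  have hi := Rep.indIncl_bhom _ h0
  refine ⟨Rep.indLift _ h0 φ, Rep.indLift_hom _ h0 hφ, ?_⟩
  refine Rep.ind_hom_ext _ h0 (g := LinearMap.id) (hπ.comp (Rep.indLift_hom _ h0 hφ))
    ⟨⟨fun _ _ => rfl, fun _ _ _ => rfl, fun _ => rfl⟩, fun _ _ => rfl, fun _ _ => rfl⟩ ?_
  simp only [LinearMap.comp_apply, Rep.indLift_incl, LinearMap.id_apply]
  refine h.P_gen hc j hj (LinearMap.eqLocus (π ∘ₗ φ) (Rep.indIncl _ h0)) (fun m => ?_)
    (fun a b u hu => ?_) (fun u hu => ?_)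
  · simp only [LinearMap.mem_eqLocus, LinearMap.comp_apply, hφ', hπ.E, hs']
    rw [← hi.E, h.pgen_E]
  · simp only [LinearMap.mem_eqLocus, LinearMap.comp_apply] at hu ⊢
    rw [hφ.X, hπ.X, hu, hi.X]
  · simp only [LinearMap.mem_eqLocus, LinearMap.comp_apply] at hu ⊢
    rw [hφ.D, hπ.D, hu, hi.D]

end IsCE

end Crest.Agent.R178
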