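import Crest.Agent.R178.Alg

/-!
Representations of `A` on complex vector spaces and projective-dimension bookkeeping.
-/

set_option autoImplicit false

namespace Crest.Agent.R178

open CategoryTheory

/-- A representation of `A`. -/
structure Rep where
  V : Type
  [ag : AddCommGroup V]
  [md : Module ℂ V]
  ρ : A →ₐ[ℂ] Module.End ℂ V

attribute [instance] Rep.ag Rep.md

namespace Rep

noncomputable def E (R : Rep) (i : ℕ) : Module.End ℂ R.V := R.ρ (aE i)
noncomputable def X (R : Rep) (a b : Fin 2) : Module.End ℂ R.V := R.ρ (aX a b)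
noncomputable def D (R : Rep) : Module.End ℂ R.V := R.ρ aD
noncomputable def P (R : Rep) (k : Fin 2) : Module.End ℂ R.V := R.ρ (aP k)
noncomputable def Q (R : Rep) (k : Fin 2) : Module.End ℂ R.V := R.ρ (aR k)

lemma rels (R : Rep) : Rels R.E R.X R.D R.P R.Q := relsA.map (R.ρ : A →+* Module.End ℂ R.V)

/-- Build a representation from operators. -/
noncomputable abbrev ofOps (V : Type) [AddCommGroup V] [Module ℂ V] {e : ℕ → Module.End ℂ V}
    {x : Fin 2 → Fin 2 → Module.End ℂ V} {d : Module.End ℂ V} {p r : Fin 2 → Module.End ℂ V}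
    (h : Rels e x d p r) : Rep := ⟨V, liftA h⟩

section
variable (V : Type) [AddCommGroup V] [Module ℂ V] {e : ℕ → Module.End ℂ V}
    {x : Fin 2 → Fin 2 → Module.End ℂ V} {d : Module.End ℂ V} {p r : Fin 2 → Module.End ℂ V}
    (h : Rels e x d p r)
lemma ofOps_E (i : ℕ) : (ofOps V h).E i = e i := liftA_E h i
lemma ofOps_X (a b : Fin 2) : (ofOps V h).X a b = x a b := liftA_X h a b
lemma ofOps_D : (ofOps V h).D = d := liftA_D h
lemma ofOps_P (k : Fin 2) : (ofOps V h).P k = p k := liftA_P h k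
lemma ofOps_Q (k : Fin 2) : (ofOps V h).Q k = r k := liftA_R h k
end

noncomputable instance modA (R : Rep) : Module A R.V :=
  Module.compHom R.V (R.ρ : A →+* Module.End ℂ R.V)

lemma smul_def (R : Rep) (a : A) (v : R.V) : a • v = R.ρ a v := rfl

instance tower (R : Rep) : IsScalarTower ℂ A R.V where
  smul_assoc c a v := by simp [smul_def]

noncomputable def obj (R : Rep) : ModuleCat.{0} A := ModuleCat.of A R.V

/-- projective dimension `< n` -/
def PD (R : Rep) (n : ℕ) : Prop := HasProjectiveDimensionLT R.obj n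

end Rep

/-- linear maps commuting with the idempotents and raising operators -/
structure IsBHom (R S : Rep) (f : R.V →ₗ[ℂ] S.V) : Prop where
  E : ∀ i v, f (R.E i v) = S.E i (f v)
  X : ∀ a b v, f (R.X a b v) = S.X a b (f v)
  D : ∀ v, f (R.D v) = S.D (f v)

/-- module maps -/
structure IsHom (R S : Rep) (f : R.V →ₗ[ℂ] S.V) : Prop extends IsBHom R S f where
  P : ∀ k v, f (R.P k v) = S.P k (f v)
  Q : ∀ k v, f (R.Q k v) = S.Q k (f v)

variable {R S T : Rep}

lemma IsBHom.comp {g : S.V →ₗ[ℂ] T.V} {f : R.V →ₗ[ℂ] S.V} (hg : IsBHom S T g) (hf : IsBHom R S f) :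
    IsBHom R T (g ∘ₗ f) where
  E i v := by simp [hf.E, hg.E]
  X a b v := by simp [hf.X, hg.X]
  D v := by simp [hf.D, hg.D]

lemma IsHom.comp {g : S.V →ₗ[ℂ] T.V} {f : R.V →ₗ[ℂ] S.V} (hg : IsHom S T g) (hf : IsHom R S f) :
    IsHom R T (g ∘ₗ f) where
  toIsBHom := hg.toIsBHom.comp hf.toIsBHom
  P k v := by simp [hf.P, hg.P]
  Q k v := by simp [hf.Q, hg.Q]

lemma IsHom.map_rho {f : R.V →ₗ[ℂ] S.V} (hf : IsHom R S f) (a : A) :
    ∀ v, f (R.ρ a v) = S.ρ a (f v) := by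
  induction a using A_induction with
  | halg c => intro v; simp
  | hE i => exact hf.E i
  | hX a b => exact hf.X a b
  | hD => exact hf.D
  | hP k => exact hf.P k
  | hR k => exact hf.Q k
  | hmul a b ha hb => intro v; simp [ha, hb]
  | hadd a b ha hb => intro v; simp [ha, hb]

/-- the `A`-linear map -/
def IsHom.toLin {f : R.V →ₗ[ℂ] S.V} (hf : IsHom R S f) : R.V →ₗ[A] S.V where
  toFun := f
  map_add' := f.map_add
  map_smul' a v := hf.map_rho a v

noncomputable def IsHom.toCat {f : R.V →ₗ[ℂ] S.V} (hf : IsHom R S f) : R.obj ⟶ S.obj :=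
  ModuleCat.ofHom hf.toLin

lemma isHom_of_lin (f : R.V →ₗ[A] S.V) : IsHom R S (f.restrictScalars ℂ) where
  E i v := f.map_smul (aE i) v
  X a b v := f.map_smul (aX a b) v
  D v := f.map_smul aD v
  P k v := f.map_smul (aP k) v
  Q k v := f.map_smul (aR k) v

/-- a short exact sequence of representations -/
structure IsSES (R S T : Rep) (f : R.V →ₗ[ℂ] S.V) (g : S.V →ₗ[ℂ] T.V) : Prop where
  hf : IsHom R S f
  hg : IsHom S T g
  inj : Function.Injective f
  surj : Function.Surjective g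
  exact : Function.Exact f g

namespace IsSES

variable {f : R.V →ₗ[ℂ] S.V} {g : S.V →ₗ[ℂ] T.V}

noncomputable def sc (h : IsSES R S T f g) : ShortComplex (ModuleCat.{0} A) :=
  ShortComplex.mk h.hf.toCat h.hg.toCat (by
    ext v
    exact h.exact.apply_apply_eq_zero v)

lemma se (h : IsSES R S T f g) : h.sc.ShortExact :=
  ModuleCat.shortComplex_shortExact _ h.exact h.inj h.surj

lemma pd₁ (h : IsSES R S T f g) {n : ℕ} (h2 : S.PD n) (h3 : T.PD (n + 1)) : R.PD n :=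
  h.se.hasProjectiveDimensionLT_X₁ n h2 h3

lemma pd₂ (h : IsSES R S T f g) {n : ℕ} (h1 : R.PD n) (h3 : T.PD n) : S.PD n :=
  h.se.hasProjectiveDimensionLT_X₂ n h1 h3

lemma pd₃ (h : IsSES R S T f g) {n : ℕ} (h1 : R.PD n) (h2 : S.PD (n + 1)) : T.PD (n + 1) :=
  h.se.hasProjectiveDimensionLT_X₃ n h1 h2

end IsSES

lemma Rep.PD.mono {n m : ℕ} (h : R.PD n) (hnm : n ≤ m) : R.PD m := by
  unfold Rep.PD at *
  exact hasProjectiveDimensionLT_of_ge _ n m hnm

lemma Rep.PD.of_retract {n : ℕ} (h : S.PD n) {i : R.V →ₗ[ℂ] S.V} {q : S.V →ₗ[ℂ] R.V}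
    (hi : IsHom R S i) (hq : IsHom S R q) (hqi : ∀ v, q (i v) = v) : R.PD n := by
  unfold Rep.PD at *
  exact Retract.hasProjectiveDimensionLT
    (X := R.obj) (Y := S.obj) ⟨hi.toCat, hq.toCat, by ext v; exact hqi v⟩ n

lemma Rep.PD.of_bijective {n : ℕ} {f : R.V →ₗ[ℂ] S.V} (hf : IsHom R S f)
    (hb : Function.Bijective f) : R.PD n ↔ S.PD n := by
  unfold Rep.PD
  let e : R.V ≃ₗ[A] S.V := LinearEquiv.ofBijective hf.toLin hb
  let e' : R.obj ≅ S.obj := e.toModuleIso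
  exact ⟨fun _ => hasProjectiveDimensionLT_of_iso e' n,
    fun _ => hasProjectiveDimensionLT_of_iso e'.symm n⟩

lemma Rep.PD.of_sum3 {n : ℕ} {S₁ S₂ S₃ : Rep} (h₁ : S₁.PD n) (h₂ : S₂.PD n) (h₃ : S₃.PD n)
    {a₁ : S₁.V →ₗ[ℂ] R.V} {a₂ : S₂.V →ₗ[ℂ] R.V} {a₃ : S₃.V →ₗ[ℂ] R.V}
    {b₁ : R.V →ₗ[ℂ] S₁.V} {b₂ : R.V →ₗ[ℂ] S₂.V} {b₃ : R.V →ₗ[ℂ] S₃.V}
    (ha₁ : IsHom S₁ R a₁) (ha₂ : IsHom S₂ R a₂) (ha₃ : IsHom S₃ R a₃)
    (hb₁ : IsHom R S₁ b₁) (hb₂ : IsHom R S₂ b₂) (hb₃ : IsHom R S₃ b₃)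
    (h : ∀ v, a₁ (b₁ v) + a₂ (b₂ v) + a₃ (b₃ v) = v) : R.PD n := by
  unfold Rep.PD at *
  refine Retract.hasProjectiveDimensionLT
    (X := R.obj) (Y := (S₁.obj ⊞ S₂.obj) ⊞ S₃.obj)
    ⟨Limits.biprod.lift (Limits.biprod.lift hb₁.toCat hb₂.toCat) hb₃.toCat,
     Limits.biprod.desc (Limits.biprod.desc ha₁.toCat ha₂.toCat) ha₃.toCat, ?_⟩ n
  rw [Limits.biprod.lift_desc, Limits.biprod.lift_desc]
  ext v
  exact h v

lemma Rep.pd_zero_iff (R : Rep) : R.PD 0 ↔ ∀ v : R.V, v = 0 := by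
  unfold Rep.PD
  rw [hasProjectiveDimensionLT_zero_iff_isZero, ModuleCat.isZero_iff_subsingleton]
  exact ⟨fun h v => h.elim v 0, fun h => ⟨fun a b => (h a).trans (h b).symm⟩⟩

/-- The representation on a free module. -/
noncomputable def freeRep (J : Type) : Rep := ⟨J →₀ A, Algebra.lsmul ℂ ℂ (J →₀ A)⟩

lemma Rep.pd_one_of_split (R : Rep)
    (h : ∀ (Y : Rep) (π : Y.V →ₗ[ℂ] R.V), IsHom Y R π → Function.Surjective π →
      ∃ s : R.V →ₗ[ℂ] Y.V, IsHom R Y s ∧ ∀ v, π (s v) = v) : R.PD 1 := by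
  unfold Rep.PD
  rw [← projective_iff_hasProjectiveDimensionLT_one]
  have : Module.Projective A R.V := by
    refine Module.Projective.of_lifting_property'' fun f hf => ?_
    let f' : (freeRep R.V).V →ₗ[A] R.V :=
      { toFun := f, map_add' := f.map_add, map_smul' := fun a v => f.map_smul a v }
    obtain ⟨s, hs, hfs⟩ := h (freeRep R.V) (f'.restrictScalars ℂ) (isHom_of_lin f') hf
    refine ⟨{ toFun := s, map_add' := s.map_add, map_smul' := fun a v => hs.map_rho a v }, ?_⟩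
    ext v
    exact hfs v
  exact (IsProjective.iff_projective (R := A) R.V).mp this

lemma Rep.split_of_pd_one (h : R.PD 1) {Y : Rep} {π : Y.V →ₗ[ℂ] R.V} (hπ : IsHom Y R π)
    (hs : Function.Surjective π) : ∃ s : R.V →ₗ[ℂ] Y.V, IsHom R Y s ∧ ∀ v, π (s v) = v := by
  unfold Rep.PD at h
  rw [← projective_iff_hasProjectiveDimensionLT_one] at h
  have : Module.Projective A R.V := (IsProjective.iff_projective (R := A) R.V).mpr h
  obtain ⟨s, hs⟩ := Module.projective_lifting_property hπ.toLin LinearMap.id hs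
  exact ⟨s.restrictScalars ℂ, isHom_of_lin s, fun v => LinearMap.congr_fun hs v⟩

lemma Rep.finite (R : Rep) [FiniteDimensional ℂ R.V] : Module.Finite A R.obj :=
  Module.Finite.of_restrictScalars_finite ℂ A R.V

end Crest.Agent.R178
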